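import Crest.Agent.Lib.Modular.Step

/-!
# Band-limiting operators and resolvent truncation.
-/

namespace Crest.Agent.Lib.Modular

open Crest.OpAlg MeasureTheory Filter Topology
open scoped InnerProductSpace

variable {H : Type*} [NormedAddCommGroup H] [InnerProductSpace ℂ H] [CompleteSpace H]

/-- The bump function. -/
noncomputable def bψ : ℝ → ℂ := Classical.choose exists_bump
/-- Its Fourier transform. -/
noncomputable def bg : ℝ → ℂ := Classical.choose (Classical.choose_spec exists_bump)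

lemma bump_spec : Continuous bψ ∧
    (∀ u, ‖bψ u‖ ≤ 1) ∧ (∀ u, |u| ≤ 1 → bψ u = 1) ∧ (∀ u, 2 ≤ |u| → bψ u = 0) ∧
    Integrable bg ∧
    ∀ u : ℝ, bψ u = ∫ τ : ℝ, bg τ * Complex.exp (Complex.I * (((2 * Real.pi * τ) * u : ℝ) : ℂ)) :=
  Classical.choose_spec (Classical.choose_spec exists_bump)

/-- The constant `‖ĝ‖₁`. -/
noncomputable def C₀ : ℝ := ∫ τ, ‖bg τ‖

lemma C₀_nonneg : 0 ≤ C₀ := integral_nonneg fun _ => norm_nonneg _

/-- The band cut-off `u ↦ ψ((u-s)/δ)`. -/
noncomputable def bandF (s δ : ℝ) : CB :=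
  BoundedContinuousFunction.ofNormedAddCommGroup (fun u => bψ ((u - s) / δ))
    (bump_spec.1.comp (by fun_prop)) 1 (fun u => bump_spec.2.1 _)

@[simp] lemma bandF_apply (s δ u : ℝ) : (bandF s δ : CB) u = bψ ((u - s) / δ) := rfl

lemma bandF_eq_one {s δ u : ℝ} (hδ : 0 < δ) (h : u ∈ Set.Icc (s - δ) (s + δ)) :
    (bandF s δ : CB) u = 1 := by
  refine bump_spec.2.2.1 _ ?_
  rw [abs_div, abs_of_pos hδ, div_le_one hδ, abs_le]
  constructor <;> linarith [h.1, h.2]

lemma bandF_eq_zero {s δ u : ℝ} (hδ : 0 < δ) (h : u ∉ Set.Ioo (s - 2 * δ) (s + 2 * δ)) :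
    (bandF s δ : CB) u = 0 := by
  refine bump_spec.2.2.2.1 _ ?_
  rw [abs_div, abs_of_pos hδ, le_div_iff₀ hδ]
  by_contra hlt
  push Not at hlt
  rw [abs_lt] at hlt
  exact h ⟨by linarith [hlt.1], by linarith [hlt.2]⟩

lemma norm_bandF_le (s δ : ℝ) : ‖(bandF s δ : CB)‖ ≤ 1 := by
  rw [BoundedContinuousFunction.norm_le zero_le_one]
  exact fun u => bump_spec.2.1 _

lemma bandF_compact {s δ : ℝ} (hδ : 0 < δ) : HasCompactSupport (bandF s δ : ℝ → ℂ) := by
  refine HasCompactSupport.intro (K := Set.Icc (s - 2 * δ) (s + 2 * δ)) isCompact_Icc ?_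
  intro u hu
  exact bandF_eq_zero hδ fun h => hu ⟨h.1.le, h.2.le⟩

namespace Band

variable (S : ModularDatum H)

/-- The band-limiting operator exists in `M`, with norm control independent of `s` and `δ`. -/
theorem exists_bandOp (s : ℝ) {δ : ℝ} (hδ : 0 < δ) {b : H →L[ℂ] H} (hb : b ∈ S.M) :
    ∃ a ∈ S.M, ‖a‖ ≤ C₀ * ‖b‖ ∧ a S.vac = S.D.apply (bandF s δ) (b S.vac) := by
  set Θ : ℝ → ℝ := fun τ => 2 * Real.pi * τ / δ with hΘ
  have hΘc : Continuous Θ := by
    rw [hΘ]
    fun_prop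
  set G : ℝ → ℂ := fun τ => bg τ * Complex.exp (Complex.I * ((-(Θ τ * s) : ℝ) : ℂ)) with hG
  have hGn : ∀ τ, ‖G τ‖ = ‖bg τ‖ := by
    intro τ
    simp only [hG, norm_mul]
    rw [mul_comm Complex.I, Complex.norm_exp_ofReal_mul_I, mul_one]
  have hgi := bump_spec.2.2.2.2.1
  have hGi : Integrable G := by
    refine Integrable.mono' hgi.norm ?_ (Eventually.of_forall fun τ => (hGn τ).le)
    refine hgi.aestronglyMeasurable.mul (Continuous.aestronglyMeasurable ?_)
    have : Continuous fun τ : ℝ => ((-(Θ τ * s) : ℝ) : ℂ) := by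
      fun_prop
    fun_prop
  refine ⟨Flow.opInt S hGi hΘc b, Flow.opInt_mem S _ _ hb, ?_, ?_⟩
  · refine (Flow.norm_opInt_le S hGi hΘc b).trans (le_of_eq ?_)
    simp only [hGn, C₀]
  · rw [Flow.opInt_vac]
    symm
    refine Calc.apply_eq_integral S.D hGi hΘc _ (fun u => ?_) _
    simp only [bandF_apply]
    rw [bump_spec.2.2.2.2.2]
    refine integral_congr_ae (Eventually.of_forall fun τ => ?_)
    simp only [hG]
    rw [mul_assoc (bg τ), ← Complex.exp_add, ← mul_add, ← Complex.ofReal_add]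
    have : (2 * Real.pi * τ) * ((u - s) / δ) = -(Θ τ * s) + Θ τ * u := by
      simp only [hΘ]
      field_simp
      ring
    rw [this]

/-- Vectors in the range of the cut-off are supported in its support. -/
lemma supported_bandF (s : ℝ) {δ : ℝ} (hδ : 0 < δ) (y : H) :
    S.D.SupportedIn (Set.Icc (s - 2 * δ) (s + 2 * δ)) (S.D.apply (bandF s δ) y) := by
  intro f hf
  rw [Calc.apply_apply]
  have : f * bandF s δ = 0 := by
    ext u
    by_cases hu : u ∈ Set.Icc (s - 2 * δ) (s + 2 * δ)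
    · simp [hf u hu]
    · have : (bandF s δ : CB) u = 0 := bandF_eq_zero hδ fun h => hu ⟨h.1.le, h.2.le⟩
      simp [this]
  rw [this, map_zero]
  rfl

/-- The cut-off acts as the identity on vectors supported in its plateau. -/
lemma apply_bandF_of_supported (s : ℝ) {δ : ℝ} (hδ : 0 < δ) {y : H}
    (hy : S.D.SupportedIn (Set.Icc (s - δ) (s + δ)) y) : S.D.apply (bandF s δ) y = y := by
  have h := hy (1 - bandF s δ) (fun u hu => by
    simp [bandF_eq_one hδ hu])
  rw [Calc.apply_sub_vec, Calc.apply_one, sub_eq_zero] at h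
  exact h.symm

/-- The Tomita bound for `a⋆ξ` on the window. -/
lemma norm_star_vac_le_band (s : ℝ) {δ : ℝ} (hδ : 0 < δ) (hδ1 : δ ≤ 1) {a : H →L[ℂ] H}
    (ha : a ∈ S.M) (hsupp : S.D.SupportedIn (Set.Icc (s - 2 * δ) (s + 2 * δ)) (a S.vac)) :
    ‖star a S.vac‖ ≤ Real.exp ((|s| + 4) / 2) * ‖a S.vac‖ := by
  have h2δ : 0 < 2 * δ := by positivity
  refine Vac.norm_star_vac_le S a ha _ hsupp (bandF s (2 * δ)) (bandF_compact h2δ)
    (fun u hu => bandF_eq_one h2δ hu) _ (fun u => ?_)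
  by_cases hu : u ∈ Set.Ioo (s - 2 * (2 * δ)) (s + 2 * (2 * δ))
  · rw [norm_mul]
    have h1 : ‖(bandF s (2 * δ) : CB) u‖ ≤ 1 :=
      ((bandF s (2 * δ) : CB).norm_coe_le_norm u).trans (norm_bandF_le _ _)
    have h2 : ‖eH u‖ ≤ Real.exp ((|s| + 4) / 2) := by
      simp only [eH, Complex.norm_real, Real.norm_eq_abs]
      rw [abs_of_pos (Real.exp_pos _)]
      apply Real.exp_le_exp.2
      have := hu.2
      have := le_abs_self s
      nlinarith
    calc _ ≤ 1 * Real.exp ((|s| + 4) / 2) := by gcongr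
      _ = _ := one_mul _
  · rw [bandF_eq_zero h2δ hu, zero_mul, norm_zero]
    exact (Real.exp_pos _).le

end Band

/-- **Resolvent truncation**: every `u ∈ M` is close on a vector `ξ` to an element of norm `≤ K`,
with error controlled by `‖u⋆uξ‖/K`. -/
theorem exists_trunc (M : VonNeumannAlgebra H) {u : H →L[ℂ] H} (hu : u ∈ M) {K : ℝ} (hK : 0 < K)
    (ξ : H) : ∃ v ∈ M, ‖v‖ ≤ K ∧ ‖u ξ - v ξ‖ ≤ ‖star u (u ξ)‖ / K := by
  set A : H →L[ℂ] H := ((K ^ 2 : ℝ) : ℂ) • 1 + star u * u with hA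
  have hAx : ∀ x, A x = ((K ^ 2 : ℝ) : ℂ) • x + star u (u x) := fun x => rfl
  have hinner : ∀ x, (⟪x, star u (u x)⟫_ℂ) = ((‖u x‖ ^ 2 : ℝ) : ℂ) := by
    intro x
    rw [ContinuousLinearMap.star_eq_adjoint, ContinuousLinearMap.adjoint_inner_right,
      Step.inner_self_cast]
  have hunit : IsUnit A := by
    refine ContinuousLinearMap.isUnit_of_forall_le_norm_inner_map A (c := (K ^ 2).toNNReal)
      (Real.toNNReal_pos.2 (by positivity)) (fun x => ?_)
    have h1 : ⟪A x, x⟫_ℂ = ((K ^ 2 * ‖x‖ ^ 2 + ‖u x‖ ^ 2 : ℝ) : ℂ) := by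
      rw [hAx, inner_add_left, inner_smul_left, Step.inner_self_cast,
        ContinuousLinearMap.star_eq_adjoint, ContinuousLinearMap.adjoint_inner_left,
        Step.inner_self_cast]
      simp only [Complex.conj_ofReal]
      push_cast
      ring
    rw [h1, Complex.norm_real, Real.norm_of_nonneg (by positivity)]
    rw [Real.coe_toNNReal _ (by positivity)]
    nlinarith [sq_nonneg (‖u x‖)]
  obtain ⟨Au, hAu⟩ := hunit
  set R : H →L[ℂ] H := ↑(Au⁻¹) with hR
  have hRA : R * A = 1 := by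
    rw [hR, ← hAu]
    exact Au.inv_mul
  have hAR : A * R = 1 := by
    rw [hR, ← hAu]
    exact Au.mul_inv
  have hAM : A ∈ M := by
    refine add_mem ?_ (mul_mem (star_mem hu) hu)
    exact M.smul_mem (one_mem M) _ 
  have hRM : R ∈ M := by
    refine mem_of_commute M R fun c hc => ?_
    have h := hc A hAM
    calc c * R = (R * A) * c * R := by rw [hRA, one_mul]
      _ = R * (A * c) * R := by noncomm_ring
      _ = R * (c * A) * R := by rw [h]
      _ = R * c * (A * R) := by noncomm_ring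
      _ = R * c := by rw [hAR, mul_one]
  -- the key contraction estimate
  have hcontr : ∀ x, 2 * K * ‖u (R x)‖ ≤ ‖x‖ := by
    intro x
    set w := R x with hw
    have hx : x = ((K ^ 2 : ℝ) : ℂ) • w + star u (u w) := by
      rw [← hAx, hw]
      have := congrArg (fun T : H →L[ℂ] H => T x) hAR
      simpa using this.symm
    have h1 : ‖x‖ ^ 2 - (2 * K * ‖u w‖) ^ 2 = ‖((K ^ 2 : ℝ) : ℂ) • w - star u (u w)‖ ^ 2 := by
      rw [hx, @norm_add_sq ℂ, @norm_sub_sq ℂ, inner_smul_left, hinner]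
      simp only [Complex.conj_ofReal, ← Complex.ofReal_mul, RCLike.re_to_complex, Complex.ofReal_re]
      ring
    have h2 : (2 * K * ‖u w‖) ^ 2 ≤ ‖x‖ ^ 2 := by
      have := sq_nonneg ‖((K ^ 2 : ℝ) : ℂ) • w - star u (u w)‖
      linarith
    exact (sq_le_sq₀ (by positivity) (norm_nonneg _)).1 h2
  have huR : ‖u * R‖ ≤ 1 / (2 * K) := by
    refine ContinuousLinearMap.opNorm_le_bound _ (by positivity) fun x => ?_
    rw [div_mul_eq_mul_div, one_mul, le_div_iff₀ (by positivity), mul_comm]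
    exact hcontr x
  have hK2 : ((K ^ 2 : ℝ) : ℂ) • R + R * (star u * u) = 1 := by
    have : R * A = ((K ^ 2 : ℝ) : ℂ) • R + R * (star u * u) := by
      rw [hA, mul_add, mul_smul_comm, mul_one]
    rw [← this, hRA]
  refine ⟨((K ^ 2 : ℝ) : ℂ) • (u * R), M.smul_mem (mul_mem hu hRM) _, ?_, ?_⟩
  · rw [norm_smul, Complex.norm_real, Real.norm_of_nonneg (by positivity)]
    calc K ^ 2 * ‖u * R‖ ≤ K ^ 2 * (1 / (2 * K)) := by gcongr
      _ = K / 2 := by field_simp
      _ ≤ K := by linarith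
  · have h3 : u ξ - (((K ^ 2 : ℝ) : ℂ) • (u * R)) ξ = (u * R) (star u (u ξ)) := by
      have h4 := congrArg (fun T : H →L[ℂ] H => u (T ξ)) hK2
      simp only [ContinuousLinearMap.add_apply, ContinuousLinearMap.smul_apply,
        ContinuousLinearMap.mul_apply, ContinuousLinearMap.one_apply, map_add, map_smul] at h4
      simp only [ContinuousLinearMap.smul_apply, ContinuousLinearMap.mul_apply]
      rw [sub_eq_iff_eq_add, add_comm]
      exact h4.symm
    rw [h3]
    calc ‖(u * R) (star u (u ξ))‖ ≤ ‖u * R‖ * ‖star u (u ξ)‖ := ContinuousLinearMap.le_opNorm _ _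
      _ ≤ (1 / (2 * K)) * ‖star u (u ξ)‖ := by gcongr
      _ ≤ (1 / K) * ‖star u (u ξ)‖ := by
          gcongr
          linarith
      _ = ‖star u (u ξ)‖ / K := by ring

end Crest.Agent.Lib.Modular
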