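import Mathlib

/-!
# A bump function with integrable Fourier transform.
-/

namespace Crest.Agent.Lib.Modular

open MeasureTheory
open scoped FourierTransform SchwartzMap

/-- A compactly supported bump `ψ` which is `1` on `[-1,1]`, `0` off `(-2,2)`, bounded by `1`,
and is the inverse Fourier transform of an integrable function. -/
theorem exists_bump : ∃ (ψ : ℝ → ℂ) (g : ℝ → ℂ), Continuous ψ ∧
    (∀ u, ‖ψ u‖ ≤ 1) ∧ (∀ u, |u| ≤ 1 → ψ u = 1) ∧ (∀ u, 2 ≤ |u| → ψ u = 0) ∧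
    Integrable g ∧
    ∀ u : ℝ, ψ u = ∫ τ : ℝ, g τ * Complex.exp (Complex.I * (((2 * Real.pi * τ) * u : ℝ) : ℂ)) := by
  let b : ContDiffBump (0 : ℝ) := ⟨1, 2, one_pos, by norm_num⟩
  let ψ : ℝ → ℂ := fun u => ((b u : ℝ) : ℂ)
  have hsmooth : ContDiff ℝ ((⊤ : ℕ∞) : WithTop ℕ∞) ψ :=
    Complex.ofRealCLM.contDiff.comp b.contDiff
  have hcs : HasCompactSupport ψ := b.hasCompactSupport.comp_left (g := fun r : ℝ => (r : ℂ)) (by simp)
  let f : 𝓢(ℝ, ℂ) := hcs.toSchwartzMap hsmooth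
  have hf : (f : ℝ → ℂ) = ψ := rfl
  have hinv := f.continuous.fourierInv_fourier_eq f.integrable (𝓕 f).integrable
  refine ⟨ψ, (𝓕 f : 𝓢(ℝ, ℂ)), hsmooth.continuous, ?_, ?_, ?_, (𝓕 f).integrable, ?_⟩
  · intro u
    simp only [ψ, Complex.norm_real, Real.norm_eq_abs]
    rw [abs_of_nonneg b.nonneg]
    exact b.le_one
  · intro u hu
    have : u ∈ Metric.closedBall (0 : ℝ) b.rIn := by
      simpa [Real.dist_eq] using hu
    simp only [ψ]
    rw [b.one_of_mem_closedBall this]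
    simp
  · intro u hu
    simp only [ψ]
    rw [b.zero_of_le_dist]
    · simp
    · show (2 : ℝ) ≤ dist u 0
      simpa [Real.dist_eq] using hu
  · intro u
    have h1 : ψ u = 𝓕⁻ (𝓕 (f : ℝ → ℂ)) u := by rw [hinv]; rfl
    rw [h1, Real.fourierInv_eq']
    rw [← SchwartzMap.fourier_coe]
    refine integral_congr_ae (Filter.Eventually.of_forall fun τ => ?_)
    simp only [smul_eq_mul, mul_comm]
    congr 2
    simp only [RCLike.inner_apply, conj_trivial]
    push_cast
    ring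

end Crest.Agent.Lib.Modular
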