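import Crest.Prelude.Def_ModularData

/-!
# Basics of line calculi: the unitary group, strong continuity, Fourier representation.
-/

namespace Crest.Agent.Lib.Modular

open Crest.OpAlg MeasureTheory Filter Topology
open scoped InnerProductSpace

variable {H : Type*} [NormedAddCommGroup H] [InnerProductSpace ℂ H] [CompleteSpace H]

/-- Bounded continuous complex functions on the line. -/
abbrev CB := BoundedContinuousFunction ℝ ℂ

namespace Calc

variable (D : LineCalculus H)

lemma norm_apply_le (f : CB) : ‖D.apply f‖ ≤ ‖f‖ :=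
  NonUnitalStarAlgHom.norm_apply_le D.apply f

lemma norm_apply_vec_le (f : CB) (x : H) : ‖D.apply f x‖ ≤ ‖f‖ * ‖x‖ :=
  (D.apply f).le_opNorm x |>.trans (by gcongr; exact norm_apply_le D f)

lemma apply_apply (f g : CB) (x : H) : D.apply f (D.apply g x) = D.apply (f * g) x := by
  rw [map_mul]; rfl

lemma apply_one (x : H) : D.apply (1 : CB) x = x := by
  rw [map_one]; rfl

lemma apply_sub_vec (f g : CB) (x : H) : D.apply (f - g) x = D.apply f x - D.apply g x := by
  rw [map_sub]; rfl

lemma apply_add_vec (f g : CB) (x : H) : D.apply (f + g) x = D.apply f x + D.apply g x := by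
  rw [map_add]; rfl

lemma inner_apply_left (f : CB) (x y : H) :
    ⟪D.apply f x, y⟫_ℂ = ⟪x, D.apply (star f) y⟫_ℂ := by
  rw [map_star, ContinuousLinearMap.star_eq_adjoint, ContinuousLinearMap.adjoint_inner_right]

/-- Characters multiply. -/
lemma character_add (s t : ℝ) :
    LineCalculus.character (s + t) = LineCalculus.character s * LineCalculus.character t := by
  ext u
  simp only [LineCalculus.character, BoundedContinuousFunction.coe_mul, Pi.mul_apply,
    BoundedContinuousFunction.coe_ofNormedAddCommGroup]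
  rw [← Complex.exp_add]
  congr 1
  push_cast
  ring

lemma character_zero : LineCalculus.character 0 = (1 : CB) := by
  ext u
  simp [LineCalculus.character]

lemma star_character (t : ℝ) : star (LineCalculus.character t) = LineCalculus.character (-t) := by
  ext u
  simp only [LineCalculus.character, BoundedContinuousFunction.star_apply,
    BoundedContinuousFunction.coe_ofNormedAddCommGroup]
  rw [Complex.star_def, ← Complex.exp_conj]
  congr 1
  simp only [map_mul, Complex.conj_I, Complex.conj_ofReal]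
  push_cast
  ring

lemma character_apply (t u : ℝ) :
    (LineCalculus.character t : CB) u = Complex.exp (Complex.I * ((t * u : ℝ) : ℂ)) := rfl

lemma wave_add (s t : ℝ) : D.wave (s + t) = D.wave s * D.wave t := by
  simp [LineCalculus.wave, character_add]

lemma wave_zero : D.wave 0 = 1 := by
  simp [LineCalculus.wave, character_zero]

lemma star_wave (t : ℝ) : star (D.wave t) = D.wave (-t) := by
  simp only [LineCalculus.wave]
  rw [← map_star, star_character]

lemma wave_mul_neg (t : ℝ) : D.wave t * D.wave (-t) = 1 := by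
  rw [← wave_add, add_neg_cancel, wave_zero]

lemma wave_neg_mul (t : ℝ) : D.wave (-t) * D.wave t = 1 := by
  rw [← wave_add, neg_add_cancel, wave_zero]

lemma wave_wave_neg (t : ℝ) (x : H) : D.wave t (D.wave (-t) x) = x := by
  have := congrArg (fun T : H →L[ℂ] H => T x) (wave_mul_neg D t)
  simpa using this

lemma wave_neg_wave (t : ℝ) (x : H) : D.wave (-t) (D.wave t x) = x := by
  have := congrArg (fun T : H →L[ℂ] H => T x) (wave_neg_mul D t)
  simpa using this

lemma inner_wave_left (t : ℝ) (x y : H) : ⟪D.wave t x, y⟫_ℂ = ⟪x, D.wave (-t) y⟫_ℂ := by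
  rw [← star_wave, ContinuousLinearMap.star_eq_adjoint, ContinuousLinearMap.adjoint_inner_right]

lemma inner_wave_right (t : ℝ) (x y : H) : ⟪x, D.wave t y⟫_ℂ = ⟪D.wave (-t) x, y⟫_ℂ := by
  rw [inner_wave_left, neg_neg]

lemma inner_wave_wave (t : ℝ) (x y : H) : ⟪D.wave t x, D.wave t y⟫_ℂ = ⟪x, y⟫_ℂ := by
  rw [inner_wave_left, wave_neg_wave]

lemma norm_wave (t : ℝ) (x : H) : ‖D.wave t x‖ = ‖x‖ := by
  have h := inner_wave_wave D t x x
  rw [inner_self_eq_norm_sq_to_K, inner_self_eq_norm_sq_to_K] at h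
  have h2 : ‖D.wave t x‖ ^ 2 = ‖x‖ ^ 2 := by exact_mod_cast h
  exact (sq_eq_sq₀ (norm_nonneg _) (norm_nonneg _)).1 h2

/-- `char t * χ` depends continuously (in sup norm) on `t` for compactly supported `χ`. -/
lemma continuous_character_mul (χ : CB) (hχ : HasCompactSupport (χ : ℝ → ℂ)) :
    Continuous fun t : ℝ => (LineCalculus.character t * χ : CB) := by
  -- a Lipschitz bound
  obtain ⟨C, hC⟩ : ∃ C : ℝ, ∀ u : ℝ, |u| * ‖χ u‖ ≤ C := by
    have hcont : Continuous fun u : ℝ => |u| * ‖χ u‖ := by
      have := χ.continuous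
      fun_prop
    have hsupp : HasCompactSupport fun u : ℝ => |u| * ‖χ u‖ := by
      refine HasCompactSupport.intro (K := tsupport (χ : ℝ → ℂ)) hχ ?_
      intro u hu
      have : χ u = 0 := image_eq_zero_of_notMem_tsupport hu
      simp [this]
    obtain ⟨C, hC⟩ := hcont.bounded_above_of_compact_support hsupp
    refine ⟨C, fun u => ?_⟩
    have := hC u
    rwa [Real.norm_of_nonneg (by positivity)] at this
  have hC0 : 0 ≤ C := by simpa using (hC 0)
  refine LipschitzWith.continuous (K := ⟨C, hC0⟩) ?_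
  refine LipschitzWith.of_dist_le_mul fun s t => ?_
  rw [BoundedContinuousFunction.dist_le (by positivity)]
  intro u
  simp only [BoundedContinuousFunction.coe_mul, Pi.mul_apply, character_apply]
  rw [dist_eq_norm, ← sub_mul, norm_mul]
  have h1 : ‖Complex.exp (Complex.I * ((s * u : ℝ) : ℂ)) - Complex.exp (Complex.I * ((t * u : ℝ) : ℂ))‖
      ≤ |s - t| * |u| := by
    have : Complex.exp (Complex.I * ((s * u : ℝ) : ℂ)) - Complex.exp (Complex.I * ((t * u : ℝ) : ℂ))
        = Complex.exp (Complex.I * ((t * u : ℝ) : ℂ)) *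
          (Complex.exp (Complex.I * (((s - t) * u : ℝ) : ℂ)) - 1) := by
      rw [mul_sub, ← Complex.exp_add, mul_one]
      congr 2
      push_cast
      ring
    rw [this, norm_mul]
    have h2 : ‖Complex.exp (Complex.I * ((t * u : ℝ) : ℂ))‖ = 1 := by
      rw [mul_comm, Complex.norm_exp_ofReal_mul_I]
    rw [h2, one_mul]
    have h3 := Real.norm_exp_I_mul_ofReal_sub_one_le (x := (s - t) * u)
    simpa [abs_mul, Complex.norm_real, mul_comm] using h3
  calc ‖Complex.exp (Complex.I * ((s * u : ℝ) : ℂ)) - Complex.exp (Complex.I * ((t * u : ℝ) : ℂ))‖ * ‖χ u‖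
      ≤ (|s - t| * |u|) * ‖χ u‖ := by gcongr
    _ = |s - t| * (|u| * ‖χ u‖) := by ring
    _ ≤ |s - t| * C := by gcongr; exact hC u
    _ = C * dist s t := by rw [Real.dist_eq]; ring

/-- Evaluation of the calculus at a vector, as a continuous linear map. -/
noncomputable def applyCLM (x : H) : CB →L[ℂ] H :=
  LinearMap.mkContinuous
    { toFun := fun f => D.apply f x
      map_add' := fun f g => apply_add_vec D f g x
      map_smul' := fun c f => by
        rw [map_smul]; rfl } ‖x‖
    (fun f => by
      simpa [mul_comm] using norm_apply_vec_le D f x)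

@[simp] lemma applyCLM_apply (x : H) (f : CB) : applyCLM D x f = D.apply f x := rfl

lemma wave_apply_mul (t : ℝ) (χ : CB) (x : H) :
    D.wave t (D.apply χ x) = D.apply (LineCalculus.character t * χ) x := by
  simp only [LineCalculus.wave]
  rw [apply_apply]

/-- Strong continuity of the unitary group. -/
lemma continuous_wave_apply (x : H) : Continuous fun t : ℝ => D.wave t x := by
  rw [continuous_iff_continuousAt]
  intro t₀
  rw [Metric.continuousAt_iff]
  intro ε hε
  obtain ⟨χ, hχ, hχx⟩ := D.window x (ε / 3) (by positivity)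
  have hcont : Continuous fun t : ℝ => D.wave t (D.apply χ x) := by
    simp_rw [wave_apply_mul]
    exact (applyCLM D x).continuous.comp (continuous_character_mul χ hχ)
  obtain ⟨δ, hδ, hδ'⟩ := Metric.continuousAt_iff.1 (hcont.continuousAt (x := t₀)) (ε / 3)
    (by positivity)
  refine ⟨δ, hδ, fun t ht => ?_⟩
  have h1 := hδ' ht
  have h2 : dist (D.wave t x) (D.wave t (D.apply χ x)) < ε / 3 := by
    rw [dist_eq_norm, ← map_sub, norm_wave, norm_sub_rev]
    exact hχx
  have h3 : dist (D.wave t₀ (D.apply χ x)) (D.wave t₀ x) < ε / 3 := by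
    rw [dist_eq_norm, ← map_sub, norm_wave]
    exact hχx
  calc dist (D.wave t x) (D.wave t₀ x)
      ≤ dist (D.wave t x) (D.wave t (D.apply χ x))
        + dist (D.wave t (D.apply χ x)) (D.wave t₀ (D.apply χ x))
        + dist (D.wave t₀ (D.apply χ x)) (D.wave t₀ x) := dist_triangle4 _ _ _ _
    _ < ε / 3 + ε / 3 + ε / 3 := by gcongr
    _ = ε := by ring

lemma norm_character_mul_le (t : ℝ) (χ : CB) : ‖(LineCalculus.character t * χ : CB)‖ ≤ ‖χ‖ := by
  rw [BoundedContinuousFunction.norm_le (norm_nonneg _)]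
  intro u
  simp only [BoundedContinuousFunction.coe_mul, Pi.mul_apply, character_apply, norm_mul]
  rw [mul_comm Complex.I, Complex.norm_exp_ofReal_mul_I, one_mul]
  exact χ.norm_coe_le_norm u

section Fourier

variable {Ω : Type*} [MeasurableSpace Ω] [TopologicalSpace Ω] [SecondCountableTopology Ω]
  [OpensMeasurableSpace Ω] {μ : Measure Ω}

/-- Integrability of the wave integrand. -/
lemma integrable_smul_wave {G : Ω → ℂ} (hG : Integrable G μ) {Θ : Ω → ℝ} (hΘ : Continuous Θ)
    (y : H) : Integrable (fun τ => G τ • D.wave (Θ τ) y) μ := by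
  refine Integrable.mono' (hG.norm.mul_const ‖y‖) ?_ ?_
  · exact hG.aestronglyMeasurable.smul
      ((continuous_wave_apply D y).comp hΘ).aestronglyMeasurable
  · refine Eventually.of_forall fun τ => ?_
    rw [norm_smul, norm_wave]

/-- Fourier representation of the calculus: if `F u = ∫ G τ exp(i Θ τ u)`, then
`F(D) y = ∫ G τ exp(i Θ τ D) y`. -/
theorem apply_eq_integral {G : Ω → ℂ} (hG : Integrable G μ) {Θ : Ω → ℝ} (hΘ : Continuous Θ)
    (F : CB) (hF : ∀ u : ℝ, F u = ∫ τ, G τ * Complex.exp (Complex.I * ((Θ τ * u : ℝ) : ℂ)) ∂μ)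
    (y : H) : D.apply F y = ∫ τ, G τ • D.wave (Θ τ) y ∂μ := by
  -- the case of a vector in the range of a compactly supported cut-off
  have key : ∀ (χ : CB), HasCompactSupport (χ : ℝ → ℂ) → ∀ x : H,
      D.apply F (D.apply χ x) = ∫ τ, G τ • D.wave (Θ τ) (D.apply χ x) ∂μ := by
    intro χ hχ x
    set Φ : Ω → CB := fun τ => G τ • (LineCalculus.character (Θ τ) * χ : CB) with hΦ
    have hΦint : Integrable Φ μ := by
      refine Integrable.mono' (hG.norm.mul_const ‖χ‖) ?_ ?_
      · exact hG.aestronglyMeasurable.smul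
          ((continuous_character_mul χ hχ).comp hΘ).aestronglyMeasurable
      · refine Eventually.of_forall fun τ => ?_
        rw [hΦ]
        simp only [norm_smul]
        gcongr
        exact norm_character_mul_le _ _
    have hint : ∫ τ, Φ τ ∂μ = F * χ := by
      ext u
      have h1 := (BoundedContinuousFunction.evalCLM ℂ u).integral_comp_comm hΦint
      simp only [BoundedContinuousFunction.evalCLM_apply] at h1
      rw [← h1, BoundedContinuousFunction.coe_mul, Pi.mul_apply, hF u, ← integral_mul_const]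
      refine integral_congr_ae (Eventually.of_forall fun τ => ?_)
      simp [hΦ, character_apply, mul_assoc]
    rw [apply_apply, ← hint]
    have h2 := (applyCLM D x).integral_comp_comm hΦint
    simp only [applyCLM_apply] at h2
    rw [← h2]
    refine integral_congr_ae (Eventually.of_forall fun τ => ?_)
    simp only [hΦ]
    rw [map_smul, wave_apply_mul]
    rfl
  -- density
  refine eq_of_forall_dist_le fun ε hε => ?_
  set C := ‖F‖ + ∫ τ, ‖G τ‖ ∂μ + 1 with hC
  have hCpos : 0 < C := by
    have : 0 ≤ ∫ τ, ‖G τ‖ ∂μ := integral_nonneg fun _ => norm_nonneg _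
    have : 0 ≤ ‖F‖ := norm_nonneg _
    positivity
  obtain ⟨χ, hχ, hχy⟩ := D.window y (ε / C) (by positivity)
  set y' := D.apply χ y with hy'
  have h1 : ‖D.apply F y - D.apply F y'‖ ≤ ‖F‖ * (ε / C) := by
    rw [← map_sub]
    refine (norm_apply_vec_le D F _).trans ?_
    rw [norm_sub_rev]
    gcongr
  have h2 : ‖(∫ τ, G τ • D.wave (Θ τ) y' ∂μ) - ∫ τ, G τ • D.wave (Θ τ) y ∂μ‖
      ≤ (∫ τ, ‖G τ‖ ∂μ) * (ε / C) := by
    rw [← integral_sub (integrable_smul_wave D hG hΘ y') (integrable_smul_wave D hG hΘ y),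
      ← integral_mul_const]
    refine norm_integral_le_of_norm_le (hG.norm.mul_const _) (Eventually.of_forall fun τ => ?_)
    rw [← smul_sub, ← map_sub, norm_smul, norm_wave]
    gcongr
  have h3 := key χ hχ y
  rw [dist_eq_norm]
  have : D.apply F y - ∫ τ, G τ • D.wave (Θ τ) y ∂μ = (D.apply F y - D.apply F y')
      + ((∫ τ, G τ • D.wave (Θ τ) y' ∂μ) - ∫ τ, G τ • D.wave (Θ τ) y ∂μ) := by
    rw [h3]; abel
  rw [this]
  calc _ ≤ ‖D.apply F y - D.apply F y'‖
        + ‖(∫ τ, G τ • D.wave (Θ τ) y' ∂μ) - ∫ τ, G τ • D.wave (Θ τ) y ∂μ‖ := norm_add_le _ _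
    _ ≤ ‖F‖ * (ε / C) + (∫ τ, ‖G τ‖ ∂μ) * (ε / C) := add_le_add h1 h2
    _ ≤ C * (ε / C) := by
        rw [← add_mul]; gcongr; rw [hC]; linarith
    _ = ε := by field_simp

end Fourier

end Calc

end Crest.Agent.Lib.Modular
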