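import Crest.Agent.Lib.Modular.Vac
import Crest.Agent.Lib.Modular.Bump

/-!
# The modular flow and operator-valued integrals of it.
-/

namespace Crest.Agent.Lib.Modular

open Crest.OpAlg MeasureTheory Filter Topology
open scoped InnerProductSpace

variable {H : Type*} [NormedAddCommGroup H] [InnerProductSpace ℂ H] [CompleteSpace H]

/-- Membership in a von Neumann algebra through the commutant. -/
lemma mem_of_commute (M : VonNeumannAlgebra H) (x : H →L[ℂ] H)
    (h : ∀ c : H →L[ℂ] H, (∀ m ∈ M, m * c = c * m) → c * x = x * c) : x ∈ M := by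
  have hcc := M.centralizer_centralizer
  have : x ∈ Set.centralizer (Set.centralizer (M : Set (H →L[ℂ] H))) := by
    rw [Set.mem_centralizer_iff]
    intro c hc
    rw [Set.mem_centralizer_iff] at hc
    exact h c (fun m hm => hc m hm)
  rw [hcc] at this
  exact this

namespace Flow

variable (S : ModularDatum H)

lemma flow_apply (t : ℝ) (a : H →L[ℂ] H) (x : H) :
    S.flow t a x = S.D.wave t (a (S.D.wave (-t) x)) := rfl

lemma flow_mem' (t : ℝ) {a : H →L[ℂ] H} (ha : a ∈ S.M) : S.flow t a ∈ S.M := S.flow_mem t a ha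

lemma flow_mul (t : ℝ) (a b : H →L[ℂ] H) : S.flow t (a * b) = S.flow t a * S.flow t b := by
  ext x
  simp [flow_apply, Calc.wave_neg_wave]

lemma star_flow (t : ℝ) (a : H →L[ℂ] H) : star (S.flow t a) = S.flow t (star a) := by
  simp only [ModularDatum.flow, star_mul, Calc.star_wave, neg_neg, mul_assoc]

lemma flow_flow (r t : ℝ) (a : H →L[ℂ] H) : S.flow r (S.flow t a) = S.flow (r + t) a := by
  simp only [ModularDatum.flow, Calc.wave_add, neg_add, mul_assoc]
  have : S.D.wave (-t) * S.D.wave (-r) = S.D.wave (-r) * S.D.wave (-t) := by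
    rw [← Calc.wave_add, ← Calc.wave_add, add_comm]
  rw [this]

lemma norm_flow_apply_le (t : ℝ) (a : H →L[ℂ] H) (x : H) : ‖S.flow t a x‖ ≤ ‖a‖ * ‖x‖ := by
  rw [flow_apply, Calc.norm_wave]
  refine (a.le_opNorm _).trans ?_
  rw [Calc.norm_wave]

/-- Continuity of `t ↦ wave t (y t)`. -/
lemma continuous_wave_comp {y : ℝ → H} (hy : Continuous y) :
    Continuous fun t => S.D.wave t (y t) := by
  rw [continuous_iff_continuousAt]
  intro t₀
  rw [Metric.continuousAt_iff]
  intro ε hε
  obtain ⟨δ₁, hδ₁, h₁⟩ := Metric.continuousAt_iff.1 (hy.continuousAt (x := t₀)) (ε / 2)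
    (by positivity)
  obtain ⟨δ₂, hδ₂, h₂⟩ := Metric.continuousAt_iff.1
    ((Calc.continuous_wave_apply S.D (y t₀)).continuousAt (x := t₀)) (ε / 2) (by positivity)
  refine ⟨min δ₁ δ₂, lt_min hδ₁ hδ₂, fun t ht => ?_⟩
  have h3 := h₁ (lt_of_lt_of_le ht (min_le_left _ _))
  have h4 := h₂ (lt_of_lt_of_le ht (min_le_right _ _))
  calc dist (S.D.wave t (y t)) (S.D.wave t₀ (y t₀))
      ≤ dist (S.D.wave t (y t)) (S.D.wave t (y t₀)) + dist (S.D.wave t (y t₀)) (S.D.wave t₀ (y t₀)) :=
        dist_triangle _ _ _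
    _ < ε / 2 + ε / 2 := by
        refine add_lt_add ?_ h4
        rw [dist_eq_norm, ← map_sub, Calc.norm_wave, ← dist_eq_norm]
        exact h3
    _ = ε := by ring

lemma continuous_flow_apply (a : H →L[ℂ] H) (x : H) : Continuous fun t => S.flow t a x := by
  simp only [flow_apply]
  refine continuous_wave_comp S (a.continuous.comp ?_)
  exact (Calc.continuous_wave_apply S.D x).comp continuous_neg

section OpInt

variable {Ω : Type*} [MeasurableSpace Ω] [TopologicalSpace Ω] [SecondCountableTopology Ω]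
  [OpensMeasurableSpace Ω] {μ : Measure Ω} {G : Ω → ℂ} {Θ : Ω → ℝ}

lemma integrable_smul_flow (hG : Integrable G μ) (hΘ : Continuous Θ) (a : H →L[ℂ] H) (x : H) :
    Integrable (fun τ => G τ • S.flow (Θ τ) a x) μ := by
  refine Integrable.mono' (hG.norm.mul_const (‖a‖ * ‖x‖)) ?_ ?_
  · exact hG.aestronglyMeasurable.smul
      ((continuous_flow_apply S a x).comp hΘ).aestronglyMeasurable
  · refine Eventually.of_forall fun τ => ?_
    rw [norm_smul]
    gcongr
    exact norm_flow_apply_le S _ a x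

/-- The operator `∫ G(τ) σ_{Θ τ}(a) dμ(τ)`, defined strongly. -/
noncomputable def opInt (hG : Integrable G μ) (hΘ : Continuous Θ) (a : H →L[ℂ] H) : H →L[ℂ] H :=
  LinearMap.mkContinuous
    { toFun := fun x => ∫ τ, G τ • S.flow (Θ τ) a x ∂μ
      map_add' := fun x y => by
        rw [← integral_add (integrable_smul_flow S hG hΘ a x) (integrable_smul_flow S hG hΘ a y)]
        simp only [map_add, smul_add]
      map_smul' := fun c x => by
        simp only [RingHom.id_apply]
        rw [← integral_smul]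
        simp only [map_smul, smul_comm (G _) c] }
    ((∫ τ, ‖G τ‖ ∂μ) * ‖a‖)
    (fun x => by
      show ‖∫ τ, G τ • S.flow (Θ τ) a x ∂μ‖ ≤ _
      have : (∫ τ, ‖G τ‖ ∂μ) * ‖a‖ * ‖x‖ = ∫ τ, ‖G τ‖ * (‖a‖ * ‖x‖) ∂μ := by
        rw [integral_mul_const, mul_assoc]
      rw [this]
      refine norm_integral_le_of_norm_le (hG.norm.mul_const _) (Eventually.of_forall fun τ => ?_)
      rw [norm_smul]
      gcongr
      exact norm_flow_apply_le S _ a x)

lemma opInt_apply (hG : Integrable G μ) (hΘ : Continuous Θ) (a : H →L[ℂ] H) (x : H) :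
    opInt S hG hΘ a x = ∫ τ, G τ • S.flow (Θ τ) a x ∂μ := rfl

lemma norm_opInt_le (hG : Integrable G μ) (hΘ : Continuous Θ) (a : H →L[ℂ] H) :
    ‖opInt S hG hΘ a‖ ≤ (∫ τ, ‖G τ‖ ∂μ) * ‖a‖ := by
  refine LinearMap.mkContinuous_norm_le _ ?_ _
  have : 0 ≤ ∫ τ, ‖G τ‖ ∂μ := integral_nonneg fun _ => norm_nonneg _
  positivity

lemma opInt_mem (hG : Integrable G μ) (hΘ : Continuous Θ) {a : H →L[ℂ] H} (ha : a ∈ S.M) :
    opInt S hG hΘ a ∈ S.M := by
  refine mem_of_commute S.M _ fun c hc => ?_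
  ext x
  simp only [ContinuousLinearMap.mul_apply, opInt_apply]
  rw [← c.integral_comp_comm (integrable_smul_flow S hG hΘ a x)]
  refine integral_congr_ae (Eventually.of_forall fun τ => ?_)
  have h := hc _ (flow_mem' S (Θ τ) ha)
  have h2 := congrArg (fun T : H →L[ℂ] H => T x) h
  simp only [ContinuousLinearMap.mul_apply] at h2
  simp only [map_smul]
  rw [h2]

lemma opInt_vac (hG : Integrable G μ) (hΘ : Continuous Θ) (a : H →L[ℂ] H) :
    opInt S hG hΘ a S.vac = ∫ τ, G τ • S.D.wave (Θ τ) (a S.vac) ∂μ := by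
  rw [opInt_apply]
  simp only [Vac.flow_apply_vac]

end OpInt

end Flow

end Crest.Agent.Lib.Modular
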