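import Crest.Agent.Lib.Modular.Band

/-!
# Iterating the step: a long random-sign sum with bounded fourth moment.
-/

namespace Crest.Agent.Lib.Modular

open Crest.OpAlg MeasureTheory Filter Topology
open scoped InnerProductSpace

variable {H : Type*} [NormedAddCommGroup H] [InnerProductSpace ℂ H] [CompleteSpace H]

namespace Step

variable (S : ModularDatum H) (T : H →L[ℂ] H)

lemma N_nonneg (u : H →L[ℂ] H) : 0 ≤ N S u := by unfold N; positivity
lemma Ns_nonneg (u : H →L[ℂ] H) : 0 ≤ Ns S u := by unfold Ns; positivity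
lemma Q_nonneg (u : H →L[ℂ] H) : 0 ≤ Q S u := by unfold Q; positivity
lemma W_nonneg (u : H →L[ℂ] H) : 0 ≤ W S T u := by unfold W; positivity

/-- The induction on the number of steps. -/
theorem iterate (herg : S.Ergodic) (ω : Ultrafilter ℕ) (hω : (ω : Filter ℕ) ≤ atTop)
    {a : H →L[ℂ] H} (ha : a ∈ S.M) (c' : ℝ)
    (hmean : ∀ᶠ k in (ω : Filter ℕ),
      c' ≤ windowMean (fun t => ‖T (S.D.wave t (a S.vac))‖ ^ 2) k)
    (q : ℝ) (hq : 0 ≤ q) (K : Set ℝ) (hKa : S.D.SupportedIn K (a S.vac)) (m : ℕ) :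
    ∀ j : ℕ, j ≤ m → ∃ v ∈ S.M, S.D.SupportedIn K (v S.vac) ∧
      Q S v + ((m : ℝ) - j) * (2 * N S a + 2 * Ns S a) * N S v
        + ((m : ℝ) - j) * (2 * N S a) * Ns S v - q * W S T v ≤
      j * (Q S a + 1 - q * c' + m * (2 * N S a ^ 2 + 4 * N S a * Ns S a)) := by
  have hNa := N_nonneg S a
  have hNsa := Ns_nonneg S a
  intro j
  induction j with
  | zero =>
    intro _
    refine ⟨0, zero_mem _, ?_, ?_⟩
    · simpa using supported_zero
    · simp [Q, N, Ns, W]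
  | succ j ih =>
    intro hj
    obtain ⟨v, hv, hsupp, hbound⟩ := ih (by omega)
    have hjm : (j : ℝ) + 1 ≤ m := by exact_mod_cast hj
    set p := ((m : ℝ) - (j + 1 : ℕ)) * (2 * N S a + 2 * Ns S a) with hp
    set p' := ((m : ℝ) - (j + 1 : ℕ)) * (2 * N S a) with hp'
    obtain ⟨v', hv', hsupp', hstep⟩ := step S T herg ω hω ha c' hmean p p' q hq hv K hKa hsupp
      (ε := 1) one_pos
    refine ⟨v', hv', hsupp', ?_⟩
    push_cast at hp hp' ⊢
    have e1 : p + 2 * N S a + 2 * Ns S a = ((m : ℝ) - j) * (2 * N S a + 2 * Ns S a) := by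
      rw [hp]; ring
    have e2 : p' + 2 * N S a = ((m : ℝ) - j) * (2 * N S a) := by
      rw [hp']; ring
    rw [e1, e2] at hstep
    have hrest : p * N S a + p' * Ns S a ≤ m * (2 * N S a ^ 2 + 4 * N S a * Ns S a) := by
      have : p * N S a + p' * Ns S a
          = ((m : ℝ) - (j + 1)) * (2 * N S a ^ 2 + 4 * N S a * Ns S a) := by
        rw [hp, hp']; ring
      rw [this]
      have hD : 0 ≤ 2 * N S a ^ 2 + 4 * N S a * Ns S a := by positivity
      have hj0 : (0 : ℝ) ≤ j := Nat.cast_nonneg j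
      exact mul_le_mul_of_nonneg_right (by linarith) hD
    calc _ ≤ _ := hstep
      _ ≤ (j : ℝ) * (Q S a + 1 - q * c' + m * (2 * N S a ^ 2 + 4 * N S a * Ns S a))
            + (Q S a + m * (2 * N S a ^ 2 + 4 * N S a * Ns S a) - q * c' + 1) := by
          linarith
      _ = _ := by ring

/-- The scaled sum: an element of `M` whose fourth moment is bounded against `T`. -/
theorem exists_u (herg : S.Ergodic) (ω : Ultrafilter ℕ) (hω : (ω : Filter ℕ) ≤ atTop)
    {a : H →L[ℂ] H} (ha : a ∈ S.M) (c' : ℝ)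
    (hmean : ∀ᶠ k in (ω : Filter ℕ),
      c' ≤ windowMean (fun t => ‖T (S.D.wave t (a S.vac))‖ ^ 2) k)
    (q : ℝ) (hq : 0 ≤ q) (K : Set ℝ) (hKa : S.D.SupportedIn K (a S.vac)) :
    ∃ u ∈ S.M, S.D.SupportedIn K (u S.vac) ∧
      Q S u - q * W S T u ≤ 1 + (2 * N S a ^ 2 + 4 * N S a * Ns S a) - q * c' := by
  obtain ⟨m, hm⟩ := exists_nat_ge (Q S a + 1)
  have hQa := Q_nonneg S a
  have hm1 : (1 : ℝ) ≤ m := by linarith
  have hm0 : (0 : ℝ) < m := by linarith
  obtain ⟨v, hv, hsupp, hb⟩ := iterate S T herg ω hω ha c' hmean (m * q) (by positivity) K hKa m m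
    le_rfl
  simp only [sub_self, zero_mul, add_zero] at hb
  set r : ℝ := Real.sqrt ((m : ℝ)⁻¹) with hr
  have hr2 : r ^ 2 = (m : ℝ)⁻¹ := Real.sq_sqrt (by positivity)
  have hr0 : 0 ≤ r := Real.sqrt_nonneg _
  refine ⟨((r : ℝ) : ℂ) • v, S.M.smul_mem hv _, ?_, ?_⟩
  · exact supported_smul _ hsupp
  · have e1 : Q S (((r : ℝ) : ℂ) • v) = r ^ 4 * Q S v := by
      simp only [Q, star_smul, ContinuousLinearMap.smul_apply, map_smul, Complex.star_def,
        Complex.conj_ofReal, norm_smul, Complex.norm_real, Real.norm_eq_abs, abs_of_nonneg hr0]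
      ring
    have e2 : W S T (((r : ℝ) : ℂ) • v) = r ^ 2 * W S T v := by
      simp only [W, ContinuousLinearMap.smul_apply, map_smul,
        norm_smul, Complex.norm_real, Real.norm_eq_abs, abs_of_nonneg hr0]
      ring
    rw [e1, e2]
    have hr4 : r ^ 4 = (m : ℝ)⁻¹ * (m : ℝ)⁻¹ := by
      rw [show r ^ 4 = r ^ 2 * r ^ 2 by ring, hr2]
    rw [hr4, hr2]
    have hbd : (m : ℝ)⁻¹ * (m : ℝ)⁻¹ * (Q S v - m * q * W S T v) ≤
        (m : ℝ)⁻¹ * (m : ℝ)⁻¹ *
        ((m : ℝ) * (Q S a + 1 - (m * q) * c' + m * (2 * N S a ^ 2 + 4 * N S a * Ns S a))) :=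
      mul_le_mul_of_nonneg_left hb (by positivity)
    have hx : (m : ℝ)⁻¹ * (m : ℝ)⁻¹ * (Q S v - m * q * W S T v)
        = (m : ℝ)⁻¹ * (m : ℝ)⁻¹ * Q S v - q * ((m : ℝ)⁻¹ * W S T v) := by
      field_simp
    have hy : (m : ℝ)⁻¹ * (m : ℝ)⁻¹ *
        ((m : ℝ) * (Q S a + 1 - (m * q) * c' + m * (2 * N S a ^ 2 + 4 * N S a * Ns S a)))
        = (Q S a + 1) / m + (2 * N S a ^ 2 + 4 * N S a * Ns S a) - q * c' := by
      field_simp
      ring
    rw [hx, hy] at hbd
    have hz : (Q S a + 1) / m ≤ 1 := by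
      rw [div_le_one hm0]
      exact hm
    linarith

end Step

end Crest.Agent.Lib.Modular
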