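import Crest.Agent.Lib.Modular.Iterate

/-!
# Bounded recovery for a single index.
-/

namespace Crest.Agent.Lib.Modular

open Crest.OpAlg MeasureTheory Filter Topology
open scoped InnerProductSpace

variable {H : Type*} [NormedAddCommGroup H] [InnerProductSpace ℂ H] [CompleteSpace H]

namespace Main

/-- The norm bound. -/
noncomputable def bdC (T : H →L[ℂ] H) (s c : ℝ) : ℝ :=
  let τ := ‖T‖ + 1
  let E := Real.exp ((|s| + 4) / 2)
  let G := 33 + 64 * E ^ 2
  let q := 16 * G / c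
  let M₀ := q * τ ^ 2
  C₀ * (8 * τ * M₀ / Real.sqrt c)

set_option maxHeartbeats 1000000 in
theorem recovery_single (S : ModularDatum H) (herg : S.Ergodic) (ω : Ultrafilter ℕ)
    (hω : (ω : Filter ℕ) ≤ atTop) (T : H →L[ℂ] H) (s δ : ℝ) (hδ : 0 < δ) (hδ1 : δ ≤ 1)
    (h : H) (hh : ‖h‖ = 1) (hband : S.D.SupportedIn (Set.Icc (s - δ) (s + δ)) h)
    (c : ℝ) (hc : 0 < c) (hmean : c ≤ ultraMean ω (fun t : ℝ => ‖T (S.D.wave t h)‖ ^ 2)) :
    ∃ v ∈ S.M, ‖v‖ ≤ bdC T s c ∧ Real.sqrt c / 8 ≤ ‖T (v S.vac)‖ ∧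
      S.D.SupportedIn (Set.Icc (s - 4 * δ) (s + 4 * δ)) (v S.vac) := by
  set τ := ‖T‖ + 1 with hτ
  have hτ1 : 1 ≤ τ := by have := norm_nonneg T; linarith
  have hτ0 : 0 < τ := by linarith
  have hTτ : ‖T‖ ≤ τ := by linarith
  set E := Real.exp ((|s| + 4) / 2) with hE
  have hE0 : 0 < E := Real.exp_pos _
  set G := 33 + 64 * E ^ 2 with hG
  have hG0 : 0 < G := by positivity
  set q := 16 * G / c with hq
  have hq0 : 0 < q := by positivity
  set M₀ := q * τ ^ 2 with hM₀
  have hM₀0 : 0 < M₀ := by positivity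
  have hsc : 0 < Real.sqrt c := Real.sqrt_pos.2 hc
  have hsc2 : Real.sqrt c ^ 2 = c := Real.sq_sqrt hc.le
  set K := 8 * τ * M₀ / Real.sqrt c with hK
  have hK0 : 0 < K := by positivity
  have hbdC : bdC T s c = C₀ * K := rfl
  -- approximation of `h`
  set ε := min 1 (Real.sqrt c / (2 * τ)) with hε
  have hε0 : 0 < ε := lt_min one_pos (by positivity)
  have hε1 : ε ≤ 1 := min_le_left _ _
  have hε2 : ε ≤ Real.sqrt c / (2 * τ) := min_le_right _ _
  obtain ⟨_, ⟨b, rfl⟩, hb⟩ := S.cyclic.exists_dist_lt h hε0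
  have hbM : (b : H →L[ℂ] H) ∈ S.M := b.2
  obtain ⟨a, haM, -, haξ⟩ := Band.exists_bandOp S s hδ hbM
  have hFh := Band.apply_bandF_of_supported S s hδ hband
  have hah : ‖a S.vac - h‖ ≤ ε := by
    have e : a S.vac - h = S.D.apply (bandF s δ) ((b : H →L[ℂ] H) S.vac - h) := by
      rw [haξ, map_sub, hFh]
    rw [e]
    refine (Calc.norm_apply_vec_le _ _ _).trans ?_
    have h1 := norm_bandF_le s δ
    rw [dist_comm, dist_eq_norm] at hb
    calc _ ≤ 1 * ‖(b : H →L[ℂ] H) S.vac - h‖ := by gcongr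
      _ ≤ ε := by rw [one_mul]; exact hb.le
  have haKsupp : S.D.SupportedIn (Set.Icc (s - 2 * δ) (s + 2 * δ)) (a S.vac) := by
    rw [haξ]
    exact Band.supported_bandF S s hδ _
  have hnorma : ‖a S.vac‖ ≤ 2 := by
    have := norm_sub_norm_le (a S.vac) h
    rw [hh] at this
    linarith
  have hstara : ‖star a S.vac‖ ≤ E * 2 := by
    refine (Band.norm_star_vac_le_band S s hδ hδ1 haM haKsupp).trans ?_
    gcongr
  have hNa : Step.N S a ≤ 4 := by
    have : ‖a S.vac‖ ^ 2 ≤ 2 ^ 2 := by gcongr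
    unfold Step.N
    linarith
  have hNsa : Step.Ns S a ≤ 4 * E ^ 2 := by
    have : ‖star a S.vac‖ ^ 2 ≤ (E * 2) ^ 2 := by gcongr
    unfold Step.Ns
    linarith
  have hNa0 := Step.N_nonneg S a
  have hNsa0 := Step.Ns_nonneg S a
  have hD : 1 + (2 * Step.N S a ^ 2 + 4 * Step.N S a * Step.Ns S a) ≤ G := by
    have h1 : Step.N S a ^ 2 ≤ 16 := by nlinarith
    have h2 : Step.N S a * Step.Ns S a ≤ 4 * (4 * E ^ 2) := by
      apply mul_le_mul hNa hNsa hNsa0 (by norm_num)
    rw [hG]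
    nlinarith
  -- the mean
  have hmean' : ∀ᶠ k in (ω : Filter ℕ),
      c / 8 ≤ windowMean (fun t => ‖T (S.D.wave t (a S.vac))‖ ^ 2) k := by
    set f : ℝ → ℝ := fun t => ‖T (S.D.wave t h)‖ ^ 2 with hf
    set g : ℝ → ℝ := fun t => ‖T (S.D.wave t (a S.vac))‖ ^ 2 with hg
    have hfc : Continuous f := ((T.continuous.comp (Calc.continuous_wave_apply S.D _)).norm).pow 2
    have hgc : Continuous g := ((T.continuous.comp (Calc.continuous_wave_apply S.D _)).norm).pow 2
    have hfb : ∀ t, |f t| ≤ ‖T‖ ^ 2 := by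
      intro t
      simp only [hf]
      rw [abs_of_nonneg (by positivity)]
      have : ‖T (S.D.wave t h)‖ ≤ ‖T‖ := by
        refine (T.le_opNorm _).trans ?_
        rw [Calc.norm_wave, hh, mul_one]
      gcongr
    have hpt : ∀ t, f t ≤ 2 * g t + c / 2 := by
      intro t
      simp only [hf, hg]
      have h1 : ‖T (S.D.wave t h)‖ ≤ ‖T (S.D.wave t (a S.vac))‖ + ‖T‖ * ε := by
        have h2 : T (S.D.wave t h) = T (S.D.wave t (a S.vac)) + T (S.D.wave t (h - a S.vac)) := by
          rw [map_sub, map_sub]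
          abel
        rw [h2]
        refine (norm_add_le _ _).trans ?_
        gcongr
        refine (T.le_opNorm _).trans ?_
        rw [Calc.norm_wave, norm_sub_rev]
        gcongr
      have h3 : ‖T‖ * ε ≤ Real.sqrt c / 2 := by
        calc ‖T‖ * ε ≤ τ * (Real.sqrt c / (2 * τ)) := by gcongr
          _ = Real.sqrt c / 2 := by field_simp
      have h4 : (‖T‖ * ε) ^ 2 ≤ c / 4 := by
        have : (‖T‖ * ε) ^ 2 ≤ (Real.sqrt c / 2) ^ 2 := by gcongr
        calc _ ≤ _ := this
          _ = Real.sqrt c ^ 2 / 4 := by ring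
          _ = c / 4 := by rw [hsc2]
      nlinarith [sq_nonneg (‖T (S.D.wave t (a S.vac))‖ - ‖T‖ * ε), norm_nonneg (T (S.D.wave t h)),
        mul_nonneg (norm_nonneg T) hε0.le, norm_nonneg (T (S.D.wave t (a S.vac)))]
    have hlim := RMean.tendsto_ultraMean ω hfc hfb
    have hev := hlim.eventually_const_lt (u := 3 * c / 4) (by linarith)
    filter_upwards [hev, hω (eventually_ge_atTop 1)] with k hk1 hk2
    have h5 := RMean.windowMean_mono hfc (by fun_prop : Continuous fun t => 2 * g t + c / 2) hpt k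
    rw [RMean.windowMean_add (by fun_prop) continuous_const, RMean.windowMean_const_mul,
      RMean.windowMean_const _ k hk2] at h5
    linarith
  -- the long sum
  obtain ⟨u, huM, husupp, hu⟩ := Step.exists_u S T herg ω hω haM (c / 8) hmean' q hq0.le _ haKsupp
  have hqc : q * (c / 8) = 2 * G := by
    rw [hq]
    field_simp
    ring
  have hu' : Step.Q S u - q * Step.W S T u ≤ -G := by
    have : 1 + (2 * Step.N S a ^ 2 + 4 * Step.N S a * Step.Ns S a) - q * (c / 8) ≤ -G := by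
      rw [hqc]; linarith
    linarith
  have hQ0 := Step.Q_nonneg S u
  -- lower bound for `T u ξ`
  have hWu : c / 16 ≤ Step.W S T u := by
    have h1 : G ≤ q * Step.W S T u := by linarith
    have h2 : q * (c / 16) = G := by
      rw [hq]; field_simp
    have h3 : q * (c / 16) ≤ q * Step.W S T u := by rw [h2]; exact h1
    exact le_of_mul_le_mul_left h3 hq0
  have hTu : Real.sqrt c / 4 ≤ ‖T (u S.vac)‖ := by
    have h1 : (Real.sqrt c / 4) ^ 2 ≤ ‖T (u S.vac)‖ ^ 2 := by
      have : (Real.sqrt c / 4) ^ 2 = c / 16 := by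
        rw [div_pow, hsc2]; norm_num
      rw [this]
      exact hWu
    exact (sq_le_sq₀ (by positivity) (norm_nonneg _)).1 h1
  -- upper bound for the fourth moment
  set x := ‖star u (u S.vac)‖ with hx
  have hQx : Step.Q S u = x ^ 2 := rfl
  have hvacn : ‖S.vac‖ = 1 := S.norm_vac
  have hNx : ‖u S.vac‖ ^ 2 ≤ x := by
    have h1 : ⟪S.vac, star u (u S.vac)⟫_ℂ = ((‖u S.vac‖ ^ 2 : ℝ) : ℂ) := by
      rw [ContinuousLinearMap.star_eq_adjoint, ContinuousLinearMap.adjoint_inner_right,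
        Step.inner_self_cast]
    have h2 := norm_inner_le_norm (𝕜 := ℂ) S.vac (star u (u S.vac))
    rw [h1, Complex.norm_real, Real.norm_of_nonneg (by positivity), hvacn, one_mul] at h2
    exact h2
  have hxM : x ≤ M₀ := by
    have h1 : Step.W S T u ≤ ‖T‖ ^ 2 * ‖u S.vac‖ ^ 2 := by
      have : ‖T (u S.vac)‖ ^ 2 ≤ (‖T‖ * ‖u S.vac‖) ^ 2 := by
        gcongr
        exact T.le_opNorm _
      simpa [Step.W, mul_pow] using this
    have h2 : x ^ 2 ≤ q * Step.W S T u := by
      rw [← hQx]; linarith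
    have h3 : q * Step.W S T u ≤ q * (τ ^ 2 * x) := by
      gcongr
      calc _ ≤ _ := h1
        _ ≤ τ ^ 2 * x := by
            have : ‖T‖ ^ 2 ≤ τ ^ 2 := by gcongr
            exact mul_le_mul this hNx (by positivity) (by positivity)
    have h4 : x ^ 2 ≤ M₀ * x := by
      calc _ ≤ _ := h2
        _ ≤ _ := h3
        _ = M₀ * x := by rw [hM₀]; ring
    by_contra hlt
    push Not at hlt
    have hxpos : 0 < x := hM₀0.trans hlt
    have h5 : x * x ≤ M₀ * x := by rw [← sq]; exact h4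
    exact absurd (le_of_mul_le_mul_right h5 hxpos) (not_le.2 hlt)
  -- truncation
  obtain ⟨v', hv'M, hv'n, hv'e⟩ := exists_trunc S.M huM hK0 S.vac
  have hv'e2 : ‖u S.vac - v' S.vac‖ ≤ M₀ / K := by
    refine hv'e.trans ?_
    gcongr
  -- re-smoothing
  have h2δ : 0 < 2 * δ := by positivity
  obtain ⟨v, hvM, hvn, hvξ⟩ := Band.exists_bandOp S s h2δ hv'M
  refine ⟨v, hvM, ?_, ?_, ?_⟩
  · rw [hbdC]
    refine hvn.trans ?_
    gcongr
    exact C₀_nonneg
  · have hFu : S.D.apply (bandF s (2 * δ)) (u S.vac) = u S.vac :=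
      Band.apply_bandF_of_supported S s h2δ husupp
    have hdecomp : v S.vac = u S.vac - S.D.apply (bandF s (2 * δ)) (u S.vac - v' S.vac) := by
      rw [hvξ, map_sub, hFu]
      abel
    have herr : ‖T (S.D.apply (bandF s (2 * δ)) (u S.vac - v' S.vac))‖ ≤ Real.sqrt c / 8 := by
      refine (T.le_opNorm _).trans ?_
      have h1 : ‖S.D.apply (bandF s (2 * δ)) (u S.vac - v' S.vac)‖ ≤ M₀ / K := by
        refine (Calc.norm_apply_vec_le _ _ _).trans ?_
        calc _ ≤ 1 * (M₀ / K) := by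
              gcongr
              exact norm_bandF_le _ _
          _ = M₀ / K := one_mul _
      calc ‖T‖ * _ ≤ τ * (M₀ / K) := by gcongr
        _ = Real.sqrt c / 8 := by
            rw [hK]
            field_simp
    rw [hdecomp, map_sub]
    have := norm_sub_norm_le (T (u S.vac)) (T (S.D.apply (bandF s (2 * δ)) (u S.vac - v' S.vac)))
    linarith
  · rw [hvξ]
    have := Band.supported_bandF S s h2δ (v' S.vac)
    rwa [show 2 * (2 * δ) = 4 * δ by ring] at this

end Main

end Crest.Agent.Lib.Modular
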