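import Crest.Agent.Lib.Modular.Flow

/-!
# Ergodic means: weak limits of flow averages along an ultrafilter.
-/

namespace Crest.Agent.Lib.Modular

open Crest.OpAlg MeasureTheory Filter Topology
open scoped InnerProductSpace

variable {H : Type*} [NormedAddCommGroup H] [InnerProductSpace ℂ H] [CompleteSpace H]

/-- Weak operator limit along an ultrafilter of a bounded sequence of operators. -/
theorem exists_wot_limit (ω : Ultrafilter ℕ) (Y : ℕ → H →L[ℂ] H) (C : ℝ) (hY : ∀ k, ‖Y k‖ ≤ C) :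
    ∃ y : H →L[ℂ] H, ∀ x w : H,
      Tendsto (fun k => ⟪x, Y k w⟫_ℂ) ω (𝓝 ⟪x, y w⟫_ℂ) := by
  have hex : ∀ x w : H, ∃ L : ℂ, ‖L‖ ≤ C * ‖x‖ * ‖w‖ ∧
      Tendsto (fun k => ⟪x, Y k w⟫_ℂ) ω (𝓝 L) := by
    intro x w
    have hmem : ∀ k, ⟪x, Y k w⟫_ℂ ∈ Metric.closedBall (0 : ℂ) (C * ‖x‖ * ‖w‖) := by
      intro k
      rw [mem_closedBall_zero_iff]
      calc ‖⟪x, Y k w⟫_ℂ‖ ≤ ‖x‖ * ‖Y k w‖ := norm_inner_le_norm _ _
        _ ≤ ‖x‖ * (‖Y k‖ * ‖w‖) := by gcongr; exact (Y k).le_opNorm w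
        _ ≤ ‖x‖ * (C * ‖w‖) := by gcongr; exact hY k
        _ = C * ‖x‖ * ‖w‖ := by ring
    obtain ⟨L, hL, hL'⟩ := (isCompact_closedBall (0 : ℂ) (C * ‖x‖ * ‖w‖)).ultrafilter_le_nhds
      (ω.map fun k => ⟪x, Y k w⟫_ℂ) (by
        rw [Ultrafilter.coe_map, le_principal_iff]
        exact Filter.mem_map.2 (Filter.univ_mem' hmem))
    refine ⟨L, mem_closedBall_zero_iff.1 hL, ?_⟩
    simpa [Tendsto, Ultrafilter.coe_map] using hL'
  choose L hLb hL using hex
  have huniq : ∀ x w (r : ℂ), Tendsto (fun k => ⟪x, Y k w⟫_ℂ) ω (𝓝 r) → L x w = r :=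
    fun x w r hr => tendsto_nhds_unique (hL x w) hr
  let B₀ : H →ₛₗ[starRingEnd ℂ] H →ₗ[ℂ] ℂ :=
    LinearMap.mk₂'ₛₗ (starRingEnd ℂ) (RingHom.id ℂ) L
      (fun x x' w => huniq _ _ _ (by
        simp only [inner_add_left]
        exact (hL x w).add (hL x' w)))
      (fun c x w => huniq _ _ _ (by
        simp only [inner_smul_left]
        exact (hL x w).const_mul _))
      (fun x w w' => huniq _ _ _ (by
        simp only [map_add, inner_add_right]
        exact (hL x w).add (hL x w')))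
      (fun c x w => huniq _ _ _ (by
        simp only [map_smul, inner_smul_right, RingHom.id_apply, smul_eq_mul]
        exact (hL x w).const_mul _))
  let B : H →L⋆[ℂ] H →L[ℂ] ℂ := LinearMap.mkContinuous₂ B₀ C (fun x w => hLb x w)
  let T := InnerProductSpace.continuousLinearMapOfBilin B
  refine ⟨ContinuousLinearMap.adjoint T, fun x w => ?_⟩
  rw [ContinuousLinearMap.adjoint_inner_right, InnerProductSpace.continuousLinearMapOfBilin_apply]
  exact hL x w

namespace Mean

variable (S : ModularDatum H)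

/-- The window measure. -/
noncomputable abbrev win (k : ℕ) : Measure ℝ := volume.restrict (Set.Icc (-(k : ℝ)) k)

/-- The normalising constant. -/
noncomputable abbrev nrm (k : ℕ) : ℂ := (((2 * (k : ℝ))⁻¹ : ℝ) : ℂ)

lemma integrable_nrm (k : ℕ) : Integrable (fun _ : ℝ => nrm k) (win k) :=
  integrable_const _

/-- The window average of the flow. -/
noncomputable def meanOp (k : ℕ) (z : H →L[ℂ] H) : H →L[ℂ] H :=
  Flow.opInt S (integrable_nrm k) continuous_id z

lemma win_real (k : ℕ) : (win k).real Set.univ = 2 * (k : ℝ) := by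
  simp only [Measure.real, Measure.restrict_apply MeasurableSet.univ, Set.univ_inter,
    Real.volume_Icc]
  rw [ENNReal.toReal_ofReal (by have : (0 : ℝ) ≤ k := Nat.cast_nonneg k; linarith)]
  ring

lemma norm_meanOp_le (k : ℕ) (z : H →L[ℂ] H) : ‖meanOp S k z‖ ≤ ‖z‖ := by
  refine (Flow.norm_opInt_le S _ _ z).trans ?_
  have h : ∫ _τ : ℝ, ‖nrm k‖ ∂(win k) ≤ 1 := by
    rw [integral_const, smul_eq_mul, win_real]
    simp only [nrm, Complex.norm_real, Real.norm_eq_abs]
    rcases Nat.eq_zero_or_pos k with rfl | hk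
    · simp
    · have : (0 : ℝ) < k := by exact_mod_cast hk
      rw [abs_of_pos (by positivity)]
      field_simp
      exact le_refl _
  calc _ ≤ 1 * ‖z‖ := by gcongr
    _ = ‖z‖ := one_mul _

lemma meanOp_mem (k : ℕ) {z : H →L[ℂ] H} (hz : z ∈ S.M) : meanOp S k z ∈ S.M :=
  Flow.opInt_mem S _ _ hz

lemma meanOp_apply (k : ℕ) (z : H →L[ℂ] H) (w : H) :
    meanOp S k z w = nrm k • ∫ t in Set.Icc (-(k : ℝ)) k, S.flow t z w := by
  rw [meanOp, Flow.opInt_apply, integral_smul]
  rfl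

/-- Inner products with window means are window means of inner products. -/
lemma inner_meanOp (k : ℕ) (z : H →L[ℂ] H) (x w : H) :
    ⟪x, meanOp S k z w⟫_ℂ = nrm k * ∫ t in Set.Icc (-(k : ℝ)) k, ⟪x, S.flow t z w⟫_ℂ := by
  rw [meanOp_apply, inner_smul_right, integral_inner]
  refine (Continuous.integrableOn_Icc ?_)
  exact Flow.continuous_flow_apply S z w

/-- The interval form of the window average. -/
lemma meanOp_apply' (k : ℕ) (z : H →L[ℂ] H) (w : H) :
    meanOp S k z w = nrm k • ∫ t in (-(k : ℝ))..k, S.flow t z w := by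
  rw [meanOp_apply, intervalIntegral.integral_of_le (by simp), integral_Icc_eq_integral_Ioc]

/-- Asymptotic invariance of the window averages. -/
lemma norm_flow_meanOp_sub_le (r : ℝ) (k : ℕ) (hk : 1 ≤ k) (z : H →L[ℂ] H) (w : H) :
    ‖S.flow r (meanOp S k z) w - meanOp S k z w‖ ≤ |r| * (‖z‖ * ‖w‖) / k := by
  have hk0 : (0 : ℝ) < k := by exact_mod_cast hk
  set f : ℝ → H := fun t => S.flow t z w with hf
  have hfc : Continuous f := Flow.continuous_flow_apply S z w
  have hint : ∀ a b : ℝ, IntervalIntegrable f volume a b := fun a b => hfc.intervalIntegrable a b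
  have h1 : S.flow r (meanOp S k z) w = nrm k • ∫ t in (-(k : ℝ))..k, f (r + t) := by
    rw [Flow.flow_apply, meanOp_apply', map_smul]
    congr 1
    have hc : Continuous fun t => S.flow t z (S.D.wave (-r) w) :=
      Flow.continuous_flow_apply S z _
    rw [← ContinuousLinearMap.intervalIntegral_comp_comm _ (hc.intervalIntegrable _ _)]
    congr 1
    ext t
    show S.D.wave r (S.flow t z (S.D.wave (-r) w)) = S.flow (r + t) z w
    rw [← Flow.flow_flow]
    rfl
  rw [h1, meanOp_apply', ← smul_sub, intervalIntegral.integral_comp_add_left]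
  rw [intervalIntegral.integral_interval_sub_interval_comm (hint _ _) (hint _ _) (hint _ _)]
  rw [norm_smul]
  have hb : ∀ t, ‖f t‖ ≤ ‖z‖ * ‖w‖ := fun t => Flow.norm_flow_apply_le S t z w
  have h2 : ‖∫ t in (r + -(k : ℝ))..(-(k : ℝ)), f t‖ ≤ (‖z‖ * ‖w‖) * |r| := by
    refine (intervalIntegral.norm_integral_le_of_norm_le_const fun t _ => hb t).trans (le_of_eq ?_)
    rw [show -(k : ℝ) - (r + -(k : ℝ)) = -r by ring, abs_neg]
  have h3 : ‖∫ t in (r + (k : ℝ))..k, f t‖ ≤ (‖z‖ * ‖w‖) * |r| := by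
    refine (intervalIntegral.norm_integral_le_of_norm_le_const fun t _ => hb t).trans (le_of_eq ?_)
    rw [show (k : ℝ) - (r + (k : ℝ)) = -r by ring, abs_neg]
  have h4 := norm_sub_le (∫ t in (r + -(k : ℝ))..(-(k : ℝ)), f t) (∫ t in (r + (k : ℝ))..k, f t)
  have h5 : ‖nrm k‖ = (2 * (k : ℝ))⁻¹ := by
    simp only [nrm, Complex.norm_real, Real.norm_eq_abs]
    rw [abs_of_pos (by positivity)]
  rw [h5]
  calc (2 * (k : ℝ))⁻¹ * _ ≤ (2 * (k : ℝ))⁻¹ * ((‖z‖ * ‖w‖) * |r| + (‖z‖ * ‖w‖) * |r|) := by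
        gcongr
        exact h4.trans (add_le_add h2 h3)
    _ = |r| * (‖z‖ * ‖w‖) / k := by
        field_simp
        ring

/-- The vacuum expectation of a window mean. -/
lemma inner_vac_meanOp (k : ℕ) (hk : 1 ≤ k) (z : H →L[ℂ] H) :
    ⟪S.vac, meanOp S k z S.vac⟫_ℂ = ⟪S.vac, z S.vac⟫_ℂ := by
  have hk0 : (0 : ℝ) < k := by exact_mod_cast hk
  rw [inner_meanOp]
  have h : ∀ t : ℝ, ⟪S.vac, S.flow t z S.vac⟫_ℂ = ⟪S.vac, z S.vac⟫_ℂ := by
    intro t
    rw [Vac.flow_apply_vac, Calc.inner_wave_right, Vac.wave_vac]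
  simp only [h]
  rw [integral_const]
  have := win_real k
  rw [show (volume.restrict (Set.Icc (-(k : ℝ)) k)).real Set.univ = 2 * (k : ℝ) from this,
    Complex.real_smul]
  simp only [nrm]
  push_cast
  have hk0' : (k : ℂ) ≠ 0 := by exact_mod_cast hk0.ne'
  field_simp

/-- **The ergodic theorem** in weak form: window averages of the flow converge weakly to the
vacuum expectation, along a free ultrafilter. -/
theorem tendsto_inner_meanOp (herg : S.Ergodic) (ω : Ultrafilter ℕ) (hω : (ω : Filter ℕ) ≤ atTop)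
    {z : H →L[ℂ] H} (hz : z ∈ S.M) (x w : H) :
    Tendsto (fun k => ⟪x, meanOp S k z w⟫_ℂ) ω (𝓝 (⟪S.vac, z S.vac⟫_ℂ * ⟪x, w⟫_ℂ)) := by
  obtain ⟨y, hy⟩ := exists_wot_limit ω (fun k => meanOp S k z) ‖z‖ (fun k => norm_meanOp_le S k z)
  -- `y ∈ M`
  have hyM : y ∈ S.M := by
    refine mem_of_commute S.M y fun c hc => ?_
    refine ContinuousLinearMap.ext fun w => ext_inner_left ℂ fun x => ?_
    simp only [ContinuousLinearMap.mul_apply]
    have h1 : ⟪x, c (y w)⟫_ℂ = ⟪ContinuousLinearMap.adjoint c x, y w⟫_ℂ :=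
      (ContinuousLinearMap.adjoint_inner_left _ _ _).symm
    rw [h1]
    refine tendsto_nhds_unique (hy _ w) ?_
    have h2 : (fun k => ⟪ContinuousLinearMap.adjoint c x, meanOp S k z w⟫_ℂ)
        = fun k => ⟪x, meanOp S k z (c w)⟫_ℂ := by
      funext k
      rw [ContinuousLinearMap.adjoint_inner_left]
      have h3 := hc _ (meanOp_mem S k hz)
      have h4 := congrArg (fun T : H →L[ℂ] H => T w) h3
      simp only [ContinuousLinearMap.mul_apply] at h4
      rw [h4]
    rw [h2]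
    exact hy _ _
  -- flow invariance
  have hfix : ∀ r : ℝ, S.flow r y = y := by
    intro r
    refine ContinuousLinearMap.ext fun w => ext_inner_left ℂ fun x => ?_
    rw [Flow.flow_apply, Calc.inner_wave_right]
    have h1 := hy (S.D.wave (-r) x) (S.D.wave (-r) w)
    refine tendsto_nhds_unique h1 ?_
    have h2 : ∀ k, ⟪S.D.wave (-r) x, meanOp S k z (S.D.wave (-r) w)⟫_ℂ =
        ⟪x, S.flow r (meanOp S k z) w⟫_ℂ := by
      intro k
      rw [Flow.flow_apply, Calc.inner_wave_right]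
    simp only [h2]
    have h3 : Tendsto (fun k => ⟪x, S.flow r (meanOp S k z) w - meanOp S k z w⟫_ℂ) ω (𝓝 0) := by
      rw [tendsto_zero_iff_norm_tendsto_zero]
      have hlim : Tendsto (fun k : ℕ => ‖x‖ * (|r| * (‖z‖ * ‖w‖) / k)) (ω : Filter ℕ) (𝓝 0) := by
        have h5 : Tendsto (fun k : ℕ => (|r| * (‖z‖ * ‖w‖)) / (k : ℝ)) atTop (𝓝 0) :=
          tendsto_const_div_atTop_nhds_zero_nat _
        have := (h5.mono_left hω).const_mul ‖x‖
        simpa using this
      refine squeeze_zero' (Eventually.of_forall fun _ => norm_nonneg _) ?_ hlim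
      filter_upwards [hω (eventually_ge_atTop 1)] with k hk
      calc _ ≤ ‖x‖ * ‖S.flow r (meanOp S k z) w - meanOp S k z w‖ := norm_inner_le_norm _ _
        _ ≤ _ := by gcongr; exact norm_flow_meanOp_sub_le S r k hk z w
    have h4 := (hy x w).add h3
    rw [add_zero] at h4
    refine h4.congr fun k => ?_
    rw [inner_sub_right]
    ring
  obtain ⟨c, hc⟩ := herg y hyM hfix
  have hvac : ‖S.vac‖ = 1 := S.norm_vac
  have hcv : c = ⟪S.vac, z S.vac⟫_ℂ := by
    have h1 := hy S.vac S.vac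
    have h2 : Tendsto (fun k => ⟪S.vac, meanOp S k z S.vac⟫_ℂ) ω (𝓝 ⟪S.vac, z S.vac⟫_ℂ) := by
      refine tendsto_const_nhds.congr' ?_
      filter_upwards [hω (eventually_ge_atTop 1)] with k hk
      exact (inner_vac_meanOp S k hk z).symm
    have h3 := tendsto_nhds_unique h1 h2
    rw [hc] at h3
    simp only [ContinuousLinearMap.smul_apply, ContinuousLinearMap.one_apply, inner_smul_right] at h3
    rw [inner_self_eq_norm_sq_to_K, hvac] at h3
    simpa using h3
  have := hy x w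
  rw [hc, hcv] at this
  simpa [inner_smul_right] using this

end Mean

end Crest.Agent.Lib.Modular
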