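import Crest.Agent.Lib.Modular.Mean

/-!
# Real window means.
-/

namespace Crest.Agent.Lib.Modular

open Crest.OpAlg MeasureTheory Filter Topology
open scoped InnerProductSpace

variable {H : Type*} [NormedAddCommGroup H] [InnerProductSpace ℂ H] [CompleteSpace H]

namespace RMean

lemma vol_real (k : ℕ) : (volume : Measure ℝ).real (Set.Icc (-(k : ℝ)) k) = 2 * (k : ℝ) := by
  simp only [Measure.real, Real.volume_Icc]
  rw [ENNReal.toReal_ofReal (by have : (0 : ℝ) ≤ k := Nat.cast_nonneg k; linarith)]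
  ring

lemma windowMean_eq (f : ℝ → ℝ) (k : ℕ) :
    windowMean f k = (2 * (k : ℝ))⁻¹ * ∫ t in Set.Icc (-(k : ℝ)) k, f t := by
  rw [windowMean, setAverage_eq, vol_real, smul_eq_mul]

lemma integrableOn_win {f : ℝ → ℝ} (hf : Continuous f) (k : ℕ) :
    IntegrableOn f (Set.Icc (-(k : ℝ)) k) := hf.integrableOn_Icc

lemma windowMean_add {f g : ℝ → ℝ} (hf : Continuous f) (hg : Continuous g) (k : ℕ) :
    windowMean (fun t => f t + g t) k = windowMean f k + windowMean g k := by
  simp only [windowMean_eq]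
  rw [integral_add (integrableOn_win hf k) (integrableOn_win hg k)]
  ring

lemma windowMean_sub {f g : ℝ → ℝ} (hf : Continuous f) (hg : Continuous g) (k : ℕ) :
    windowMean (fun t => f t - g t) k = windowMean f k - windowMean g k := by
  simp only [windowMean_eq]
  rw [integral_sub (integrableOn_win hf k) (integrableOn_win hg k)]
  ring

lemma windowMean_const_mul (r : ℝ) (f : ℝ → ℝ) (k : ℕ) :
    windowMean (fun t => r * f t) k = r * windowMean f k := by
  simp only [windowMean_eq]
  rw [integral_const_mul]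
  ring

lemma windowMean_mono {f g : ℝ → ℝ} (hf : Continuous f) (hg : Continuous g)
    (h : ∀ t, f t ≤ g t) (k : ℕ) : windowMean f k ≤ windowMean g k := by
  simp only [windowMean_eq]
  exact mul_le_mul_of_nonneg_left (setIntegral_mono (integrableOn_win hf k) (integrableOn_win hg k) h)
    (by positivity)

lemma windowMean_neg (f : ℝ → ℝ) (k : ℕ) :
    windowMean (fun t => f (-t)) k = windowMean f k := by
  simp only [windowMean_eq]
  congr 1
  have hle : (-(k : ℝ)) ≤ k := by
    have : (0 : ℝ) ≤ k := Nat.cast_nonneg k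
    linarith
  rw [integral_Icc_eq_integral_Ioc, integral_Icc_eq_integral_Ioc,
    ← intervalIntegral.integral_of_le hle, ← intervalIntegral.integral_of_le hle,
    intervalIntegral.integral_comp_neg (fun t => f t), neg_neg]

lemma exists_le_windowMean {f : ℝ → ℝ} (hf : Continuous f) (k : ℕ) (hk : 1 ≤ k) :
    ∃ t, f t ≤ windowMean f k := by
  have hk0 : (0 : ℝ) < k := by exact_mod_cast hk
  have hpos : (volume : Measure ℝ) (Set.Icc (-(k : ℝ)) k) ≠ 0 := by
    rw [Real.volume_Icc]
    simp only [ne_eq, ENNReal.ofReal_eq_zero, not_le]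
    linarith
  obtain ⟨t, _, ht⟩ := exists_le_setAverage hpos (by simp [Real.volume_Icc])
    (integrableOn_win hf k)
  exact ⟨t, ht⟩

lemma windowMean_const (r : ℝ) (k : ℕ) (hk : 1 ≤ k) : windowMean (fun _ => r) k = r := by
  have hk0 : (0 : ℝ) < k := by exact_mod_cast hk
  have h := Mean.win_real k
  rw [windowMean_eq, integral_const, smul_eq_mul]
  rw [show (volume.restrict (Set.Icc (-(k : ℝ)) k)).real Set.univ = 2 * (k : ℝ) from h]
  field_simp

lemma abs_windowMean_le {f : ℝ → ℝ} (hf : Continuous f) {C : ℝ} (hC : ∀ t, |f t| ≤ C) (k : ℕ) :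
    |windowMean f k| ≤ C := by
  have hC0 : 0 ≤ C := (abs_nonneg _).trans (hC 0)
  rw [abs_le]
  constructor
  · have h := windowMean_mono (continuous_const (y := -C)) hf (fun t => (abs_le.1 (hC t)).1) k
    rcases Nat.eq_zero_or_pos k with rfl | hk
    · simpa [windowMean_eq] using hC0
    · have : windowMean (fun _ => -C) k = -C := windowMean_const _ k hk
      linarith
  · have h := windowMean_mono hf (continuous_const (y := C)) (fun t => (abs_le.1 (hC t)).2) k
    rcases Nat.eq_zero_or_pos k with rfl | hk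
    · simpa [windowMean_eq] using hC0
    · have : windowMean (fun _ => C) k = C := windowMean_const _ k hk
      linarith

/-- Bounded continuous functions have their ultra-mean as a limit along `ω`. -/
lemma tendsto_ultraMean (ω : Ultrafilter ℕ) {f : ℝ → ℝ} (hf : Continuous f) {C : ℝ}
    (hC : ∀ t, |f t| ≤ C) :
    Tendsto (windowMean f) ω (𝓝 (ultraMean ω f)) := by
  unfold ultraMean
  refine tendsto_nhds_limUnder ?_
  have hmem : ∀ k, windowMean f k ∈ Metric.closedBall (0 : ℝ) C := by
    intro k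
    rw [mem_closedBall_zero_iff, Real.norm_eq_abs]
    exact abs_windowMean_le hf hC k
  obtain ⟨L, _, hL'⟩ := (isCompact_closedBall (0 : ℝ) C).ultrafilter_le_nhds
    (ω.map (windowMean f)) (by
      rw [Ultrafilter.coe_map, le_principal_iff]
      exact Filter.mem_map.2 (Filter.univ_mem' hmem))
  refine ⟨L, ?_⟩
  simpa [Tendsto, Ultrafilter.coe_map] using hL'

variable (S : ModularDatum H)

lemma windowMean_re_inner (k : ℕ) (z : H →L[ℂ] H) (x w : H) :
    windowMean (fun t => (⟪x, S.flow t z w⟫_ℂ).re) k = (⟪x, Mean.meanOp S k z w⟫_ℂ).re := by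
  rw [Mean.inner_meanOp, windowMean_eq]
  simp only [Mean.nrm]
  rw [Complex.re_ofReal_mul]
  congr 1
  have hc : Continuous fun t => ⟪x, S.flow t z w⟫_ℂ :=
    continuous_const.inner (Flow.continuous_flow_apply S z w)
  have hint : IntegrableOn (fun t => ⟪x, S.flow t z w⟫_ℂ) (Set.Icc (-(k : ℝ)) k) :=
    hc.integrableOn_Icc
  exact Complex.reCLM.integral_comp_comm hint

/-- Ergodic theorem for real window means. -/
theorem tendsto_windowMean_inner (herg : S.Ergodic) (ω : Ultrafilter ℕ)
    (hω : (ω : Filter ℕ) ≤ atTop) {z : H →L[ℂ] H} (hz : z ∈ S.M) (x w : H) :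
    Tendsto (windowMean fun t => (⟪x, S.flow t z w⟫_ℂ).re) ω
      (𝓝 ((⟪S.vac, z S.vac⟫_ℂ * ⟪x, w⟫_ℂ).re)) := by
  have h := Mean.tendsto_inner_meanOp S herg ω hω hz x w
  have h2 := Complex.continuous_re.tendsto _ |>.comp h
  refine h2.congr fun k => ?_
  rw [windowMean_re_inner]
  rfl

/-- Same with reversed time. -/
theorem tendsto_windowMean_inner_neg (herg : S.Ergodic) (ω : Ultrafilter ℕ)
    (hω : (ω : Filter ℕ) ≤ atTop) {z : H →L[ℂ] H} (hz : z ∈ S.M) (x w : H) :
    Tendsto (windowMean fun t => (⟪x, S.flow (-t) z w⟫_ℂ).re) ω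
      (𝓝 ((⟪S.vac, z S.vac⟫_ℂ * ⟪x, w⟫_ℂ).re)) := by
  refine (tendsto_windowMean_inner S herg ω hω hz x w).congr fun k => ?_
  exact (windowMean_neg (fun t => (⟪x, S.flow t z w⟫_ℂ).re) k).symm

end RMean

end Crest.Agent.Lib.Modular
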