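import Crest.Agent.Lib.Modular.RMean

/-!
# The one-step potential estimate.
-/

namespace Crest.Agent.Lib.Modular

open Crest.OpAlg MeasureTheory Filter Topology
open scoped InnerProductSpace

variable {H : Type*} [NormedAddCommGroup H] [InnerProductSpace ℂ H] [CompleteSpace H]

namespace Step

variable (S : ModularDatum H) (T : H →L[ℂ] H)

/-- The fourth-moment quantity `‖u⋆uξ‖²`. -/
noncomputable def Q (u : H →L[ℂ] H) : ℝ := ‖star u (u S.vac)‖ ^ 2
/-- `‖uξ‖²`. -/
noncomputable def N (u : H →L[ℂ] H) : ℝ := ‖u S.vac‖ ^ 2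
/-- `‖u⋆ξ‖²`. -/
noncomputable def Ns (u : H →L[ℂ] H) : ℝ := ‖star u S.vac‖ ^ 2
/-- `‖T uξ‖²`. -/
noncomputable def W (u : H →L[ℂ] H) : ℝ := ‖T (u S.vac)‖ ^ 2

lemma parallelogram (x y : H) : ‖x + y‖ ^ 2 + ‖x - y‖ ^ 2 = 2 * ‖x‖ ^ 2 + 2 * ‖y‖ ^ 2 := by
  have := parallelogram_law_with_norm ℂ x y
  nlinarith

lemma Q_add (v x : H →L[ℂ] H) :
    Q S (v + x) + Q S (v - x) ≤
      2 * (Q S v + 2 * (⟪star v (v S.vac), star x (x S.vac)⟫_ℂ).re + Q S x
        + 2 * ‖star v (x S.vac)‖ ^ 2 + 2 * ‖star x (v S.vac)‖ ^ 2) := by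
  set α := star v (v S.vac) + star x (x S.vac) with hα
  set β := star v (x S.vac) + star x (v S.vac) with hβ
  have h1 : star (v + x) ((v + x) S.vac) = α + β := by
    simp only [star_add, ContinuousLinearMap.add_apply, map_add, hα, hβ]
    abel
  have h2 : star (v - x) ((v - x) S.vac) = α - β := by
    simp only [star_sub, ContinuousLinearMap.sub_apply, map_sub, hα, hβ]
    abel
  have h3 : Q S (v + x) + Q S (v - x) = 2 * ‖α‖ ^ 2 + 2 * ‖β‖ ^ 2 := by
    simp only [Q, h1, h2]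
    exact parallelogram α β
  have h4 : ‖α‖ ^ 2 = Q S v + 2 * (⟪star v (v S.vac), star x (x S.vac)⟫_ℂ).re + Q S x := by
    rw [hα, @norm_add_sq ℂ]
    rfl
  have h5 : ‖β‖ ^ 2 ≤ 2 * ‖star v (x S.vac)‖ ^ 2 + 2 * ‖star x (v S.vac)‖ ^ 2 := by
    have h6 := norm_add_le (star v (x S.vac)) (star x (v S.vac))
    have h7 : ‖β‖ ^ 2 ≤ (‖star v (x S.vac)‖ + ‖star x (v S.vac)‖) ^ 2 := by
      gcongr
    nlinarith [sq_nonneg (‖star v (x S.vac)‖ - ‖star x (v S.vac)‖)]
  rw [h3, h4]
  linarith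

lemma N_add (v x : H →L[ℂ] H) : N S (v + x) + N S (v - x) = 2 * N S v + 2 * N S x := by
  simp only [N, ContinuousLinearMap.add_apply, ContinuousLinearMap.sub_apply]
  exact parallelogram _ _

lemma Ns_add (v x : H →L[ℂ] H) : Ns S (v + x) + Ns S (v - x) = 2 * Ns S v + 2 * Ns S x := by
  simp only [Ns, star_add, star_sub, ContinuousLinearMap.add_apply, ContinuousLinearMap.sub_apply]
  exact parallelogram _ _

lemma W_add (v x : H →L[ℂ] H) : W S T (v + x) + W S T (v - x) = 2 * W S T v + 2 * W S T x := by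
  simp only [W, ContinuousLinearMap.add_apply, ContinuousLinearMap.sub_apply, map_add, map_sub]
  exact parallelogram _ _

/-! Values on the flow -/

lemma N_flow (t : ℝ) (a : H →L[ℂ] H) : N S (S.flow t a) = N S a := by
  simp only [N, Vac.flow_apply_vac, Calc.norm_wave]

lemma Ns_flow (t : ℝ) (a : H →L[ℂ] H) : Ns S (S.flow t a) = Ns S a := by
  simp only [Ns, Flow.star_flow, Vac.flow_apply_vac, Calc.norm_wave]

lemma star_flow_flow_vac (t : ℝ) (a : H →L[ℂ] H) :
    star (S.flow t a) (S.flow t a S.vac) = S.flow t (star a * a) S.vac := by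
  rw [Flow.flow_mul, Flow.star_flow]
  rfl

lemma Q_flow (t : ℝ) (a : H →L[ℂ] H) : Q S (S.flow t a) = Q S a := by
  simp only [Q]
  rw [star_flow_flow_vac, Vac.flow_apply_vac, Calc.norm_wave]
  rfl

lemma inner_self_re (x : H) : (⟪x, x⟫_ℂ).re = ‖x‖ ^ 2 := by
  rw [inner_self_eq_norm_sq_to_K]
  norm_cast

/-- `‖v⋆ σ_t(a) ξ‖²` as a flow matrix element. -/
lemma norm_star_flow_vac (t : ℝ) (v a : H →L[ℂ] H) :
    ‖star v (S.flow t a S.vac)‖ ^ 2 = (⟪a S.vac, S.flow (-t) (v * star v) (a S.vac)⟫_ℂ).re := by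
  rw [← inner_self_re, Vac.flow_apply_vac, Flow.flow_apply, neg_neg, Calc.inner_wave_right, neg_neg]
  simp only [ContinuousLinearMap.mul_apply]
  rw [ContinuousLinearMap.star_eq_adjoint, ContinuousLinearMap.adjoint_inner_left]

/-- `‖σ_t(a)⋆ v ξ‖²` as a flow matrix element. -/
lemma norm_flow_star_vec (t : ℝ) (y : H) (a : H →L[ℂ] H) :
    ‖star (S.flow t a) y‖ ^ 2 = (⟪y, S.flow t (a * star a) y⟫_ℂ).re := by
  rw [← inner_self_re, Flow.flow_mul, ← Flow.star_flow]
  simp only [ContinuousLinearMap.mul_apply]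
  rw [ContinuousLinearMap.star_eq_adjoint, ContinuousLinearMap.adjoint_inner_left]

lemma inner_self_cast (x : H) : ⟪x, x⟫_ℂ = ((‖x‖ ^ 2 : ℝ) : ℂ) := by
  rw [inner_self_eq_norm_sq_to_K]
  norm_cast

lemma inner_vac_star_mul (a : H →L[ℂ] H) :
    ⟪S.vac, (star a * a) S.vac⟫_ℂ = ((N S a : ℝ) : ℂ) := by
  rw [ContinuousLinearMap.mul_apply, ContinuousLinearMap.star_eq_adjoint,
    ContinuousLinearMap.adjoint_inner_right, inner_self_cast]
  rfl

lemma inner_vac_mul_star (a : H →L[ℂ] H) :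
    ⟪S.vac, (a * star a) S.vac⟫_ℂ = ((Ns S a : ℝ) : ℂ) := by
  have h := inner_vac_star_mul S (star a)
  rw [star_star] at h
  rw [h]
  rfl

/-! Support lemmas -/

lemma supported_add {D : LineCalculus H} {K : Set ℝ} {x y : H} (hx : D.SupportedIn K x)
    (hy : D.SupportedIn K y) : D.SupportedIn K (x + y) := fun f hf => by
  rw [map_add, hx f hf, hy f hf, add_zero]

lemma supported_sub {D : LineCalculus H} {K : Set ℝ} {x y : H} (hx : D.SupportedIn K x)
    (hy : D.SupportedIn K y) : D.SupportedIn K (x - y) := fun f hf => by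
  rw [map_sub, hx f hf, hy f hf, sub_zero]

lemma supported_smul {D : LineCalculus H} {K : Set ℝ} {x : H} (c : ℂ) (hx : D.SupportedIn K x) :
    D.SupportedIn K (c • x) := fun f hf => by
  rw [map_smul, hx f hf, smul_zero]

lemma supported_zero {D : LineCalculus H} {K : Set ℝ} : D.SupportedIn K 0 := fun f _ => map_zero _

lemma supported_wave {D : LineCalculus H} {K : Set ℝ} {x : H} (t : ℝ) (hx : D.SupportedIn K x) :
    D.SupportedIn K (D.wave t x) := fun f hf => by
  simp only [LineCalculus.wave]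
  rw [Calc.apply_apply]
  refine hx _ fun u hu => ?_
  simp [hf u hu]

/-- **One step**: from `v` we reach `v ± σ_t(a)` at controlled cost in the potential. -/
theorem step (herg : S.Ergodic) (ω : Ultrafilter ℕ) (hω : (ω : Filter ℕ) ≤ atTop)
    {a : H →L[ℂ] H} (ha : a ∈ S.M) (c' : ℝ)
    (hmean : ∀ᶠ k in (ω : Filter ℕ),
      c' ≤ windowMean (fun t => ‖T (S.D.wave t (a S.vac))‖ ^ 2) k)
    (p p' q : ℝ) (hq : 0 ≤ q) {v : H →L[ℂ] H} (hv : v ∈ S.M) (K : Set ℝ)
    (hKa : S.D.SupportedIn K (a S.vac)) (hKv : S.D.SupportedIn K (v S.vac)) {ε : ℝ} (hε : 0 < ε) :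
    ∃ v' ∈ S.M, S.D.SupportedIn K (v' S.vac) ∧
      Q S v' + p * N S v' + p' * Ns S v' - q * W S T v' ≤
        Q S v + (p + 2 * N S a + 2 * Ns S a) * N S v + (p' + 2 * N S a) * Ns S v - q * W S T v
          + (Q S a + p * N S a + p' * Ns S a - q * c' + ε) := by
  set ℓ₁ : ℝ → ℝ := fun t => (⟪star v (v S.vac), S.flow t (star a * a) S.vac⟫_ℂ).re with hℓ₁
  set ℓ₂ : ℝ → ℝ := fun t => (⟪a S.vac, S.flow (-t) (v * star v) (a S.vac)⟫_ℂ).re with hℓ₂
  set ℓ₃ : ℝ → ℝ := fun t => (⟪v S.vac, S.flow t (a * star a) (v S.vac)⟫_ℂ).re with hℓ₃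
  set ℓ₄ : ℝ → ℝ := fun t => ‖T (S.D.wave t (a S.vac))‖ ^ 2 with hℓ₄
  have hc₁ : Continuous ℓ₁ := Complex.continuous_re.comp
    (continuous_const.inner (Flow.continuous_flow_apply S _ _))
  have hc₂ : Continuous ℓ₂ := Complex.continuous_re.comp
    (continuous_const.inner ((Flow.continuous_flow_apply S _ _).comp continuous_neg))
  have hc₃ : Continuous ℓ₃ := Complex.continuous_re.comp
    (continuous_const.inner (Flow.continuous_flow_apply S _ _))
  have hc₄ : Continuous ℓ₄ :=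
    ((T.continuous.comp (Calc.continuous_wave_apply S.D _)).norm).pow 2
  have hsa : star a ∈ S.M := star_mem ha
  have hsv : star v ∈ S.M := star_mem hv
  have hz₁ : star a * a ∈ S.M := mul_mem hsa ha
  have hz₂ : v * star v ∈ S.M := mul_mem hv hsv
  have hz₃ : a * star a ∈ S.M := mul_mem ha hsa
  -- limits
  have h₁ : Tendsto (windowMean ℓ₁) ω (𝓝 (N S a * N S v)) := by
    have h := RMean.tendsto_windowMean_inner S herg ω hω hz₁ (star v (v S.vac)) S.vac
    convert h using 2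
    rw [inner_vac_star_mul]
    have : ⟪star v (v S.vac), S.vac⟫_ℂ = ((N S v : ℝ) : ℂ) := by
      rw [ContinuousLinearMap.star_eq_adjoint, ContinuousLinearMap.adjoint_inner_left,
        inner_self_cast]
      rfl
    rw [this, ← Complex.ofReal_mul, Complex.ofReal_re]
  have h₂ : Tendsto (windowMean ℓ₂) ω (𝓝 (Ns S v * N S a)) := by
    have h := RMean.tendsto_windowMean_inner_neg S herg ω hω hz₂ (a S.vac) (a S.vac)
    convert h using 2
    rw [inner_vac_mul_star, inner_self_cast, ← Complex.ofReal_mul, Complex.ofReal_re]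
    rfl
  have h₃ : Tendsto (windowMean ℓ₃) ω (𝓝 (Ns S a * N S v)) := by
    have h := RMean.tendsto_windowMean_inner S herg ω hω hz₃ (v S.vac) (v S.vac)
    convert h using 2
    rw [inner_vac_mul_star, inner_self_cast, ← Complex.ofReal_mul, Complex.ofReal_re]
    rfl
  -- choose the window
  have e₁ := h₁.eventually_lt_const (u := N S a * N S v + ε / 6) (by linarith)
  have e₂ := h₂.eventually_lt_const (u := Ns S v * N S a + ε / 6) (by linarith)
  have e₃ := h₃.eventually_lt_const (u := Ns S a * N S v + ε / 6) (by linarith)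
  obtain ⟨k, hk₁, hk₂, hk₃, hk₄, hk₅⟩ :=
    (e₁.and (e₂.and (e₃.and (hmean.and (hω (eventually_ge_atTop 1)))))).exists
  set ℓ : ℝ → ℝ := fun t => 2 * ℓ₁ t + 2 * ℓ₂ t + 2 * ℓ₃ t - q * ℓ₄ t with hℓ
  have hcℓ : Continuous ℓ := by
    rw [hℓ]
    fun_prop
  have hwm : windowMean ℓ k = 2 * windowMean ℓ₁ k + 2 * windowMean ℓ₂ k + 2 * windowMean ℓ₃ k
      - q * windowMean ℓ₄ k := by
    rw [hℓ, RMean.windowMean_sub (by fun_prop) (by fun_prop),
      RMean.windowMean_add (by fun_prop) (by fun_prop),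
      RMean.windowMean_add (by fun_prop) (by fun_prop),
      RMean.windowMean_const_mul, RMean.windowMean_const_mul, RMean.windowMean_const_mul,
      RMean.windowMean_const_mul]
  have hle : windowMean ℓ k ≤ 2 * (N S a * N S v) + 2 * (Ns S v * N S a) + 2 * (Ns S a * N S v)
      - q * c' + ε := by
    rw [hwm]
    have : q * c' ≤ q * windowMean ℓ₄ k := mul_le_mul_of_nonneg_left hk₄ hq
    linarith
  obtain ⟨t, ht⟩ := RMean.exists_le_windowMean hcℓ k hk₅
  -- the two candidates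
  set x := S.flow t a with hx
  have hxM : x ∈ S.M := Flow.flow_mem' S t ha
  have hxvac : x S.vac = S.D.wave t (a S.vac) := Vac.flow_apply_vac S t a
  have hKx : S.D.SupportedIn K (x S.vac) := by
    rw [hxvac]
    exact supported_wave t hKa
  have hQ := Q_add S v x
  have hN := N_add S v x
  have hNs := Ns_add S v x
  have hW := W_add S T v x
  have v1 : (⟪star v (v S.vac), star x (x S.vac)⟫_ℂ).re = ℓ₁ t := by
    rw [hx, star_flow_flow_vac]
  have v2 : ‖star v (x S.vac)‖ ^ 2 = ℓ₂ t := norm_star_flow_vac S t v a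
  have v3 : ‖star x (v S.vac)‖ ^ 2 = ℓ₃ t := norm_flow_star_vec S t (v S.vac) a
  have v4 : W S T x = ℓ₄ t := by
    simp only [W, hxvac, hℓ₄]
  have v5 : N S x = N S a := N_flow S t a
  have v6 : Ns S x = Ns S a := Ns_flow S t a
  have v7 : Q S x = Q S a := Q_flow S t a
  rw [v1, v2, v3, v7] at hQ
  rw [v5] at hN
  rw [v6] at hNs
  rw [v4] at hW
  have key : (Q S (v + x) + p * N S (v + x) + p' * Ns S (v + x) - q * W S T (v + x))
      + (Q S (v - x) + p * N S (v - x) + p' * Ns S (v - x) - q * W S T (v - x)) ≤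
      2 * (Q S v + (p + 2 * N S a + 2 * Ns S a) * N S v + (p' + 2 * N S a) * Ns S v - q * W S T v
          + (Q S a + p * N S a + p' * Ns S a - q * c' + ε)) := by
    have e1 : p * N S (v + x) + p * N S (v - x) = p * (2 * N S v + 2 * N S a) := by
      rw [← hN]; ring
    have e2 : p' * Ns S (v + x) + p' * Ns S (v - x) = p' * (2 * Ns S v + 2 * Ns S a) := by
      rw [← hNs]; ring
    have e3 : q * W S T (v + x) + q * W S T (v - x) = q * (2 * W S T v + 2 * ℓ₄ t) := by
      rw [← hW]; ring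
    have e4 : ℓ t ≤ _ := ht.trans hle
    simp only [hℓ] at e4
    nlinarith
  by_cases hcase : (Q S (v + x) + p * N S (v + x) + p' * Ns S (v + x) - q * W S T (v + x)) ≤
      (Q S (v - x) + p * N S (v - x) + p' * Ns S (v - x) - q * W S T (v - x))
  · refine ⟨v + x, add_mem hv hxM, ?_, by linarith⟩
    simpa using supported_add hKv hKx
  · refine ⟨v - x, sub_mem hv hxM, ?_, by linarith⟩
    simpa using supported_sub hKv hKx

end Step

end Crest.Agent.Lib.Modular
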