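import Crest.Agent.Lib.Modular.Calc

/-!
# The vacuum: invariance under the unitary group, and the Tomita estimate.
-/

namespace Crest.Agent.Lib.Modular

open Crest.OpAlg MeasureTheory Filter Topology
open scoped InnerProductSpace

variable {H : Type*} [NormedAddCommGroup H] [InnerProductSpace ℂ H] [CompleteSpace H]

/-- A continuous compactly supported function, as an element of `CB`. -/
noncomputable def cbOfCompact (f : ℝ → ℂ) (hc : Continuous f) (hs : HasCompactSupport f) : CB :=
  BoundedContinuousFunction.ofNormedAddCommGroup f hc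
    (Classical.choose (hc.bounded_above_of_compact_support hs))
    (Classical.choose_spec (hc.bounded_above_of_compact_support hs))

@[simp] lemma cbOfCompact_apply (f : ℝ → ℂ) (hc : Continuous f) (hs : HasCompactSupport f) (u : ℝ) :
    (cbOfCompact f hc hs : CB) u = f u := rfl

/-- The exponential weight `e^{u/2}` as a complex function. -/
noncomputable def eH (u : ℝ) : ℂ := ((Real.exp (u / 2) : ℝ) : ℂ)

lemma continuous_eH : Continuous eH := by
  unfold eH
  fun_prop

/-- Multiply a compactly supported function by `e^{u/2}`. -/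
noncomputable def halfE (f : CB) (hf : HasCompactSupport (f : ℝ → ℂ)) : CB :=
  cbOfCompact (fun u => f u * eH u) (f.continuous.mul continuous_eH) hf.mul_right

@[simp] lemma halfE_apply (f : CB) (hf : HasCompactSupport (f : ℝ → ℂ)) (u : ℝ) :
    halfE f hf u = f u * eH u := rfl

lemma halfE_compact (f : CB) (hf : HasCompactSupport (f : ℝ → ℂ)) :
    HasCompactSupport (halfE f hf : ℝ → ℂ) := by
  show HasCompactSupport (fun u => f u * eH u)
  exact hf.mul_right

lemma compact_mul_left (f g : CB) (hg : HasCompactSupport (g : ℝ → ℂ)) :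
    HasCompactSupport ((f * g : CB) : ℝ → ℂ) := by
  rw [BoundedContinuousFunction.coe_mul]
  exact hg.mul_left

lemma compact_star (f : CB) (hf : HasCompactSupport (f : ℝ → ℂ)) :
    HasCompactSupport ((star f : CB) : ℝ → ℂ) := by
  refine HasCompactSupport.intro (K := tsupport (f : ℝ → ℂ)) hf ?_
  intro u hu
  have : f u = 0 := image_eq_zero_of_notMem_tsupport hu
  simp [BoundedContinuousFunction.star_apply, this]

namespace Vac

variable (S : ModularDatum H)

/-- The Tomita graph. -/
abbrev graph : Set (H × H) :=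
  closure (Set.range fun a : S.M => ((a : H →L[ℂ] H) S.vac, star (a : H →L[ℂ] H) S.vac))

lemma mem_graph_iff (p : H × H) : p ∈ graph S ↔ S.D.HalfExp p.1 (S.J p.2) := by
  have := S.tomita
  rw [graph, this]
  rfl

lemma pair_mem_graph (a : H →L[ℂ] H) (ha : a ∈ S.M) : (a S.vac, star a S.vac) ∈ graph S :=
  subset_closure ⟨⟨a, ha⟩, rfl⟩

lemma inner_graph (p : H × H) (hp : p ∈ graph S) : ⟪S.vac, p.2⟫_ℂ = ⟪p.1, S.vac⟫_ℂ := by
  have hclosed : IsClosed {p : H × H | ⟪S.vac, p.2⟫_ℂ = ⟪p.1, S.vac⟫_ℂ} := by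
    refine isClosed_eq ?_ ?_ <;> fun_prop
  refine closure_minimal ?_ hclosed hp
  rintro _ ⟨a, rfl⟩
  show ⟪S.vac, star (a : H →L[ℂ] H) S.vac⟫_ℂ = ⟪(a : H →L[ℂ] H) S.vac, S.vac⟫_ℂ
  rw [ContinuousLinearMap.star_eq_adjoint, ContinuousLinearMap.adjoint_inner_right]

lemma J_inner (x y : H) : ⟪S.J x, S.J y⟫_ℂ = ⟪y, x⟫_ℂ := by
  have hJ : ∀ u v : H, ‖S.J u + S.J v‖ = ‖u + v‖ := fun u v => by
    rw [← map_add]; exact S.J.norm_map _
  have hJ' : ∀ u v : H, ‖S.J u - S.J v‖ = ‖u - v‖ := fun u v => by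
    rw [← map_sub]; exact S.J.norm_map _
  have hI : ∀ v : H, (Complex.I • S.J v) = - S.J (Complex.I • v) := fun v => by
    rw [S.J.map_smulₛₗ]
    simp
  rw [← inner_conj_symm y x, inner_eq_sum_norm_sq_div_four (𝕜 := ℂ) x y]
  rw [inner_eq_sum_norm_sq_div_four (𝕜 := ℂ) (S.J x) (S.J y)]
  simp only [RCLike.I_to_complex, hJ, hJ', hI, sub_neg_eq_add, ← sub_eq_add_neg]
  simp only [map_div₀, map_add, map_sub, map_mul, map_pow, RCLike.conj_ofReal, Complex.conj_I,
    Complex.conj_ofNat]
  ring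

lemma norm_J (x : H) : ‖S.J x‖ = ‖x‖ := S.J.norm_map x

/-- The key adjoint identity: `(f e^{u/2})(D) Jξ = f(D) ξ` for compactly supported `f`. -/
lemma apply_halfE_J_vac (f : CB) (hf : HasCompactSupport (f : ℝ → ℂ)) :
    S.D.apply (halfE f hf) (S.J S.vac) = S.D.apply f S.vac := by
  have hf' := compact_star f hf
  refine ext_inner_left ℂ fun w => ?_
  -- the pair built from `star f`
  have hp : (S.D.apply (star f) w, S.J (S.D.apply (halfE (star f) hf') w)) ∈ graph S := by
    rw [mem_graph_iff]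
    intro F G hFG
    simp only [S.J_J]
    rw [Calc.apply_apply, Calc.apply_apply]
    congr 2
    ext u
    simp only [BoundedContinuousFunction.coe_mul, Pi.mul_apply, halfE_apply, hFG u]
    unfold eH
    ring
  have h := inner_graph S _ hp
  simp only at h
  rw [← S.J_J S.vac, J_inner, S.J_J] at h
  have hs : star (halfE (star f) hf') = halfE f hf := by
    ext u
    simp only [BoundedContinuousFunction.star_apply, halfE_apply, star_mul', eH,
      Complex.star_def, Complex.conj_ofReal, Complex.conj_conj]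
  have hs2 : star (star f) = f := star_star f
  rw [Calc.inner_apply_left, Calc.inner_apply_left, hs, hs2] at h
  exact h

/-- `(f e^{u})(D) ξ = f(D) ξ` for compactly supported `f`. -/
lemma apply_halfE_halfE_vac (f : CB) (hf : HasCompactSupport (f : ℝ → ℂ)) :
    S.D.apply (halfE (halfE f hf) (halfE_compact f hf)) S.vac = S.D.apply f S.vac := by
  have h1 := apply_halfE_J_vac S f hf
  have hp : (S.vac, S.vac) ∈ graph S := by
    have := pair_mem_graph S 1 (one_mem S.M)
    simpa using this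
  have h2 := (mem_graph_iff S _).1 hp (halfE f hf) (halfE (halfE f hf) (halfE_compact f hf))
    (fun u => rfl)
  simp only at h2
  rw [← h1, h2]

private lemma continuous_dslope' {f : ℝ → ℂ} (hf : Differentiable ℝ f) :
    Continuous (dslope f 0) := by
  rw [continuous_iff_continuousAt]
  intro u
  by_cases hu : u = 0
  · subst hu
    exact continuousAt_dslope_same.2 (hf 0)
  · exact (continuousAt_dslope_of_ne hu).2 hf.continuous.continuousAt

/-- The vacuum is fixed by the unitary group. -/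
theorem wave_vac (t : ℝ) : S.D.wave t S.vac = S.vac := by
  set φ₁ : ℝ → ℂ := fun v => Complex.exp (Complex.I * ((t * v : ℝ) : ℂ)) with hφ₁
  set φ₂ : ℝ → ℂ := fun v => ((Real.exp v : ℝ) : ℂ) with hφ₂
  have hd₁ : Differentiable ℝ φ₁ := by
    intro v
    have : HasDerivAt (fun v : ℝ => Complex.I * ((t * v : ℝ) : ℂ)) (Complex.I * ((t : ℝ) : ℂ)) v := by
      have h := ((hasDerivAt_id v).const_mul t).ofReal_comp
      have h2 := h.const_mul Complex.I
      simpa using h2
    exact (this.cexp).differentiableAt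
  have hd₂ : Differentiable ℝ φ₂ := by
    intro v
    exact ((Real.hasDerivAt_exp v).ofReal_comp).differentiableAt
  have hA := continuous_dslope' hd₁
  have hB := continuous_dslope' hd₂
  have hBne : ∀ u, dslope φ₂ 0 u ≠ 0 := by
    intro u hu
    by_cases h0 : u = 0
    · subst h0
      rw [dslope_same] at hu
      have : HasDerivAt φ₂ (((Real.exp 0 : ℝ)) : ℂ) 0 := (Real.hasDerivAt_exp 0).ofReal_comp
      rw [this.deriv] at hu
      simp at hu
    · have h := sub_smul_dslope φ₂ 0 u
      rw [hu, smul_zero] at h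
      simp only [hφ₂, Real.exp_zero, Complex.ofReal_one] at h
      have h3 : Real.exp u = 1 := by
        have : ((Real.exp u : ℝ) : ℂ) = 1 := by
          rw [sub_eq_zero.1 h.symm]
        exact_mod_cast this
      exact h0 (Real.exp_eq_one_iff u |>.1 h3)
  have hfix : ∀ χ : CB, HasCompactSupport (χ : ℝ → ℂ) →
      S.D.wave t (S.D.apply χ S.vac) = S.D.apply χ S.vac := by
    intro χ hχ
    have hcont : Continuous fun u => χ u * (dslope φ₁ 0 u / dslope φ₂ 0 u) :=
      χ.continuous.mul (hA.div hB hBne)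
    have hcs : HasCompactSupport fun u => χ u * (dslope φ₁ 0 u / dslope φ₂ 0 u) := hχ.mul_right
    set f₀ : CB := cbOfCompact _ hcont hcs with hf₀
    have hf₀c : HasCompactSupport (f₀ : ℝ → ℂ) := hcs
    have h := apply_halfE_halfE_vac S f₀ hf₀c
    rw [Calc.wave_apply_mul, ← sub_eq_zero, ← Calc.apply_sub_vec]
    rw [← sub_eq_zero, ← Calc.apply_sub_vec] at h
    convert h using 3
    ext u
    simp only [BoundedContinuousFunction.coe_sub, BoundedContinuousFunction.coe_mul, Pi.sub_apply,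
      Pi.mul_apply, halfE_apply, Calc.character_apply]
    have h1 : f₀ u = χ u * (dslope φ₁ 0 u / dslope φ₂ 0 u) := rfl
    have e1 := sub_smul_dslope φ₁ 0 u
    have e2 := sub_smul_dslope φ₂ 0 u
    simp only [hφ₁, hφ₂, sub_zero, mul_zero, Complex.ofReal_zero, Complex.exp_zero,
      Real.exp_zero, Complex.ofReal_one, Complex.real_smul] at e1 e2
    have h4 : eH u * eH u = ((Real.exp u : ℝ) : ℂ) := by
      unfold eH
      rw [← Complex.ofReal_mul, ← Real.exp_add]
      congr 2
      ring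
    rw [h1, mul_assoc (χ u * _), h4]
    have e3 : ((Real.exp u : ℝ) : ℂ) = 1 + u * dslope φ₂ 0 u := by
      rw [e2]; ring
    have e4 : Complex.exp (Complex.I * ((t * u : ℝ) : ℂ)) = 1 + u * dslope φ₁ 0 u := by
      rw [e1]; ring
    rw [e3, e4]
    have := hBne u
    field_simp
    ring
  refine eq_of_forall_dist_le fun ε hε => ?_
  obtain ⟨χ, hχ, hχx⟩ := S.D.window S.vac (ε / 2) (by positivity)
  have h1 : ‖S.D.wave t S.vac - S.D.wave t (S.D.apply χ S.vac)‖ < ε / 2 := by
    rw [← map_sub, Calc.norm_wave, norm_sub_rev]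
    exact hχx
  rw [dist_eq_norm]
  have : S.D.wave t S.vac - S.vac = (S.D.wave t S.vac - S.D.wave t (S.D.apply χ S.vac))
      + (S.D.apply χ S.vac - S.vac) := by
    rw [hfix χ hχ]; abel
  rw [this]
  calc _ ≤ ‖S.D.wave t S.vac - S.D.wave t (S.D.apply χ S.vac)‖ + ‖S.D.apply χ S.vac - S.vac‖ :=
        norm_add_le _ _
    _ ≤ ε := by linarith

/-- The flow acts on vectors `a ξ` through the unitary group. -/
lemma flow_apply_vac (t : ℝ) (a : H →L[ℂ] H) : S.flow t a S.vac = S.D.wave t (a S.vac) := by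
  simp [ModularDatum.flow, wave_vac]

/-- The Tomita estimate: if `aξ` is supported in `W` and `ρ = 1` on `W`, then
`‖a⋆ ξ‖ ≤ sup |ρ e^{u/2}| ‖a ξ‖`. -/
theorem norm_star_vac_le (a : H →L[ℂ] H) (ha : a ∈ S.M) (W : Set ℝ)
    (hsupp : S.D.SupportedIn W (a S.vac)) (ρ : CB) (hρc : HasCompactSupport (ρ : ℝ → ℂ))
    (hρ1 : ∀ u ∈ W, ρ u = 1) (E : ℝ) (hE : ∀ u, ‖ρ u * eH u‖ ≤ E) :
    ‖star a S.vac‖ ≤ E * ‖a S.vac‖ := by
  set y := S.J (star a S.vac) with hy
  have hgr := (mem_graph_iff S _).1 (pair_mem_graph S a ha)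
  simp only at hgr
  have hzero : S.D.apply (1 - ρ) y = 0 := by
    rw [← norm_le_zero_iff]
    refine le_of_forall_pos_le_add fun ε hε => ?_
    set C := ‖(1 - ρ : CB)‖ + 1 with hC
    have hCpos : 0 < C := by positivity
    obtain ⟨χ, hχ, hχy⟩ := S.D.window y (ε / C) (by positivity)
    have hcompact : HasCompactSupport (((1 - ρ) * χ : CB) : ℝ → ℂ) := compact_mul_left _ _ hχ
    have h1 := hgr ((1 - ρ) * χ) (halfE _ hcompact) (fun u => rfl)
    have h2 : S.D.apply (halfE _ hcompact) (a S.vac) = 0 := by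
      refine hsupp _ fun u hu => ?_
      simp [hρ1 u hu]
    rw [h2, ← Calc.apply_apply] at h1
    have h3 : S.D.apply (1 - ρ) y = S.D.apply (1 - ρ) (y - S.D.apply χ y) := by
      rw [map_sub (S.D.apply (1 - ρ)), h1, sub_zero]
    rw [h3]
    refine (Calc.norm_apply_vec_le _ _ _).trans ?_
    rw [norm_sub_rev y, zero_add]
    calc ‖(1 - ρ : CB)‖ * ‖S.D.apply χ y - y‖ ≤ C * (ε / C) := by
          gcongr
          rw [hC]; linarith
    _ = ε := by field_simp
  have hfix : S.D.apply ρ y = y := by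
    have := Calc.apply_sub_vec S.D 1 ρ y
    rw [hzero, Calc.apply_one] at this
    exact (sub_eq_zero.1 this.symm).symm
  have h4 := hgr ρ (halfE ρ hρc) (fun u => rfl)
  rw [← hy, hfix] at h4
  have hEnn : 0 ≤ E := (norm_nonneg _).trans (hE 0)
  have h5 : ‖(halfE ρ hρc : CB)‖ ≤ E := by
    rw [BoundedContinuousFunction.norm_le hEnn]
    exact hE
  calc ‖star a S.vac‖ = ‖y‖ := (norm_J S _).symm
    _ = ‖S.D.apply (halfE ρ hρc) (a S.vac)‖ := by rw [h4]
    _ ≤ ‖(halfE ρ hρc : CB)‖ * ‖a S.vac‖ := Calc.norm_apply_vec_le _ _ _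
    _ ≤ E * ‖a S.vac‖ := by gcongr

end Vac

end Crest.Agent.Lib.Modular
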